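import Mathlib

namespace Vale.Agent.Lib.Helper4


/-- the cube of a difference of idempotents -/
theorem idem_sub_cube {A : Type*} [Ring A] (e f : A) (he : e * e = e) (hf : f * f = f) :
    (f - e) ^ 3 = f - f * e * f + e * f * e - e := by
  have h2 : (f - e) ^ 2 = f - f * e - e * f + e := by
    rw [pow_two, mul_sub, sub_mul, sub_mul, hf, he]
    abel
  rw [pow_succ, h2]
  simp only [mul_sub, sub_mul, add_mul]
  rw [hf, he]
  have h3 : f * e * e = f * e := by rw [mul_assoc, he]
  have h4 : e * f * f = e * f := by rw [mul_assoc, hf]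
  rw [h3, h4]
  abel

/-- weighted trace identity: for `z` commuting with the idempotents `e` and `f`,
`τ (z (f - e)) = τ (z (f - e)^3)`. -/
theorem trace_idem_sub_cube {A M : Type*} [Ring A] [AddCommGroup M] (τ : A →+ M)
    (hτ : ∀ a b : A, τ (a * b) = τ (b * a)) (e f z : A) (he : e * e = e) (hf : f * f = f)
    (hze : z * e = e * z) (hzf : z * f = f * z) :
    τ (z * (f - e) ^ 3) = τ (z * (f - e)) := by
  rw [idem_sub_cube e f he hf]
  simp only [mul_sub, mul_add, map_sub, map_add]
  have h1 : τ (z * (f * e * f)) = τ (z * (f * e)) := by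
    calc τ (z * (f * e * f)) = τ ((z * f * e) * f) := by simp only [mul_assoc]
      _ = τ (f * (z * f * e)) := hτ _ _
      _ = τ ((f * z) * f * e) := by simp only [mul_assoc]
      _ = τ ((z * f) * f * e) := by rw [hzf]
      _ = τ (z * (f * f) * e) := by simp only [mul_assoc]
      _ = τ (z * (f * e)) := by rw [hf, mul_assoc]
  have h2 : τ (z * (e * f * e)) = τ (z * (e * f)) := by
    calc τ (z * (e * f * e)) = τ ((z * e * f) * e) := by simp only [mul_assoc]
      _ = τ (e * (z * e * f)) := hτ _ _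
      _ = τ ((e * z) * e * f) := by simp only [mul_assoc]
      _ = τ ((z * e) * e * f) := by rw [hze]
      _ = τ (z * (e * e) * f) := by simp only [mul_assoc]
      _ = τ (z * (e * f)) := by rw [he, mul_assoc]
  have h3 : τ (z * (e * f)) = τ (z * (f * e)) := by
    calc τ (z * (e * f)) = τ ((z * e) * f) := by rw [mul_assoc]
      _ = τ (f * (z * e)) := hτ _ _
      _ = τ ((f * z) * e) := by rw [mul_assoc]
      _ = τ ((z * f) * e) := by rw [hzf]
      _ = τ (z * (f * e)) := by rw [mul_assoc]
  rw [h1, h2, h3]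
  abel

/-- the square of the difference of two idempotents commutes with both -/
theorem idem_sub_sq_comm {A : Type*} [Ring A] (e f : A) (he : e * e = e) (hf : f * f = f) :
    (f - e) ^ 2 * e = e * (f - e) ^ 2 ∧ (f - e) ^ 2 * f = f * (f - e) ^ 2 := by
  have h2 : (f - e) ^ 2 = f - f * e - e * f + e := by
    rw [pow_two, mul_sub, sub_mul, sub_mul, hf, he]
    abel
  rw [h2]
  constructor
  · simp only [mul_sub, sub_mul, mul_add, add_mul]
    have h3 : f * e * e = f * e := by rw [mul_assoc, he]
    have h4 : e * (e * f) = e * f := by rw [← mul_assoc, he]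
    rw [h3, h4, he]
    simp only [mul_assoc]
    abel
  · simp only [mul_sub, sub_mul, mul_add, add_mul]
    have h3 : e * f * f = e * f := by rw [mul_assoc, hf]
    have h4 : f * (f * e) = f * e := by rw [← mul_assoc, hf]
    rw [h3, h4, hf]
    simp only [mul_assoc]
    abel

/-- traces of odd powers of a difference of idempotents all agree -/
theorem trace_idem_sub_odd_pow {A M : Type*} [Ring A] [AddCommGroup M] (τ : A →+ M)
    (hτ : ∀ a b : A, τ (a * b) = τ (b * a)) (e f : A) (he : e * e = e) (hf : f * f = f)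
    (n : ℕ) : τ ((f - e) ^ (2 * n + 1)) = τ (f - e) := by
  induction n with
  | zero => simp
  | succ n ih =>
    obtain ⟨hce, hcf⟩ := idem_sub_sq_comm e f he hf
    have hze : ((f - e) ^ 2) ^ n * e = e * ((f - e) ^ 2) ^ n :=
      ((Commute.pow_left (show Commute ((f - e) ^ 2) e from hce) n)).eq
    have hzf : ((f - e) ^ 2) ^ n * f = f * ((f - e) ^ 2) ^ n :=
      ((Commute.pow_left (show Commute ((f - e) ^ 2) f from hcf) n)).eq
    have key := trace_idem_sub_cube τ hτ e f (((f - e) ^ 2) ^ n) he hf hze hzf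
    have e1 : (f - e) ^ (2 * (n + 1) + 1) = ((f - e) ^ 2) ^ n * (f - e) ^ 3 := by
      rw [← pow_mul, ← pow_add]
      congr 1
    have e2 : (f - e) ^ (2 * n + 1) = ((f - e) ^ 2) ^ n * (f - e) := by
      rw [← pow_mul, pow_succ]
    rw [e1, key, ← e2, ih]

/-- A tracial additive functional bounded by a submultiplicative gauge takes equal values on two
idempotents whose difference has gauge `< 1`. -/
theorem trace_eq_of_idem_close {A : Type*} [Ring A] (τ : A →+ ℂ)
    (hτ : ∀ a b : A, τ (a * b) = τ (b * a)) (N : A → ℝ) (hN0 : ∀ a, 0 ≤ N a)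
    (hNmul : ∀ a b, N (a * b) ≤ N a * N b) (K : ℝ) (hK : ∀ a, ‖τ a‖ ≤ K * N a)
    (e f : A) (he : e * e = e) (hf : f * f = f) (hclose : N (f - e) < 1) :
    τ f = τ e := by
  have hpow : ∀ m : ℕ, N ((f - e) ^ (m + 1)) ≤ N (f - e) ^ (m + 1) := by
    intro m
    induction m with
    | zero => simp
    | succ m ih =>
      rw [pow_succ (f - e) (m + 1), pow_succ (N (f - e)) (m + 1)]
      exact (hNmul _ _).trans (mul_le_mul_of_nonneg_right ih (hN0 _))
  have hbound : ∀ n : ℕ, ‖τ (f - e)‖ ≤ |K| * N (f - e) ^ (2 * n + 1) := by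
    intro n
    rw [← trace_idem_sub_odd_pow τ hτ e f he hf n]
    calc ‖τ ((f - e) ^ (2 * n + 1))‖ ≤ K * N ((f - e) ^ (2 * n + 1)) := hK _
      _ ≤ |K| * N ((f - e) ^ (2 * n + 1)) :=
          mul_le_mul_of_nonneg_right (le_abs_self K) (hN0 _)
      _ ≤ |K| * N (f - e) ^ (2 * n + 1) :=
          mul_le_mul_of_nonneg_left (hpow (2 * n)) (abs_nonneg K)
  have htend : Filter.Tendsto (fun n : ℕ => |K| * N (f - e) ^ (2 * n + 1)) Filter.atTop (nhds 0) := by
    have h1 : Filter.Tendsto (fun n : ℕ => N (f - e) ^ n) Filter.atTop (nhds 0) :=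
      tendsto_pow_atTop_nhds_zero_of_lt_one (hN0 _) hclose
    have h2 : Filter.Tendsto (fun n : ℕ => 2 * n + 1) Filter.atTop Filter.atTop := by
      apply Filter.tendsto_atTop_mono (fun n => ?_) Filter.tendsto_id
      simp only [id]; omega
    have h3 := (h1.comp h2).const_mul |K|
    simpa using h3
  have hzero : ‖τ (f - e)‖ ≤ 0 := ge_of_tendsto' htend hbound
  have : τ (f - e) = 0 := norm_le_zero_iff.mp hzero
  rw [map_sub, sub_eq_zero] at this
  exact this

end Vale.Agent.Lib.Helper4
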