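import Mathlib

namespace Vale.Agent.Lib.Helper4


variable {G : Type*} [Group G]

/-- convolution of complex functions on a group: the value at g is the sum over h of
a h * b (h⁻¹ g) -/
noncomputable def conv (a b : G → ℂ) : G → ℂ := fun g => ∑' h, a h * b (h⁻¹ * g)

/-- the bijection of G × G sending the pair x, h to the pair h, h⁻¹ x -/
def fiberEquiv (G : Type*) [Group G] : G × G ≃ G × G where
  toFun q := (q.2, q.2⁻¹ * q.1)
  invFun p := (p.1 * p.2, p.1)
  left_inv q := by simp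
  right_inv p := by simp

omit [Group G] in
theorem norm_le_tsum_norm_of_summable {b : G → ℂ} (hb : Summable fun g => ‖b g‖) (g : G) :
    ‖b g‖ ≤ ∑' k, ‖b k‖ := hb.le_tsum g (fun _ _ => norm_nonneg _)

theorem summable_weighted_prod {a b : G → ℂ} (ha : Summable fun g => ‖a g‖)
    (hb : Summable fun g => ‖b g‖) (w : G → ℂ) (W : ℝ) (hw : ∀ x, ‖w x‖ ≤ W) :
    Summable (fun p : G × G => w (p.1 * p.2) * (a p.1 * b p.2)) := by
  apply Summable.of_norm
  refine Summable.of_nonneg_of_le (fun p => norm_nonneg _) (fun p => ?_)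
    ((Summable.mul_of_nonneg ha hb (fun _ => norm_nonneg _) (fun _ => norm_nonneg _)).mul_left W)
  rw [norm_mul, norm_mul]
  exact mul_le_mul (hw _) le_rfl (by positivity) ((norm_nonneg _).trans (hw (p.1 * p.2)))

theorem tsum_weighted_conv {a b : G → ℂ} (ha : Summable fun g => ‖a g‖)
    (hb : Summable fun g => ‖b g‖) (w : G → ℂ) (W : ℝ) (hw : ∀ x, ‖w x‖ ≤ W) :
    ∑' x, w x * conv a b x = ∑' p : G × G, w (p.1 * p.2) * (a p.1 * b p.2) := by
  have hS := summable_weighted_prod ha hb w W hw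
  rw [← (fiberEquiv G).tsum_eq (fun p : G × G => w (p.1 * p.2) * (a p.1 * b p.2))]
  have hS' : Summable (fun q : G × G =>
      w (((fiberEquiv G) q).1 * ((fiberEquiv G) q).2) *
        (a ((fiberEquiv G) q).1 * b ((fiberEquiv G) q).2)) :=
    (fiberEquiv G).summable_iff.mpr hS
  rw [hS'.tsum_prod]
  congr 1
  funext x
  simp only [fiberEquiv, Equiv.coe_fn_mk, mul_inv_cancel_left]
  rw [tsum_mul_left]
  rfl

theorem summable_fiber {a b : G → ℂ} (ha : Summable fun g => ‖a g‖)
    (hb : Summable fun g => ‖b g‖) (g : G) :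
    Summable (fun h => ‖a h * b (h⁻¹ * g)‖) := by
  refine Summable.of_nonneg_of_le (fun h => norm_nonneg _) (fun h => ?_)
    (ha.mul_right (∑' k, ‖b k‖))
  rw [norm_mul]
  exact mul_le_mul_of_nonneg_left (norm_le_tsum_norm_of_summable hb _) (norm_nonneg _)

theorem summable_norm_conv {a b : G → ℂ} (ha : Summable fun g => ‖a g‖)
    (hb : Summable fun g => ‖b g‖) :
    Summable (fun g => ‖conv a b g‖) ∧
      ∑' g, ‖conv a b g‖ ≤ (∑' g, ‖a g‖) * (∑' g, ‖b g‖) := by
  have hP : Summable (fun p : G × G => ‖a p.1‖ * ‖b p.2‖) :=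
    Summable.mul_of_nonneg ha hb (fun _ => norm_nonneg _) (fun _ => norm_nonneg _)
  have hR : Summable (fun q : G × G => ‖a ((fiberEquiv G) q).1‖ * ‖b ((fiberEquiv G) q).2‖) :=
    (fiberEquiv G).summable_iff.mpr hP
  have hF : Summable (fun x : G => ∑' h : G,
      ‖a ((fiberEquiv G) (x, h)).1‖ * ‖b ((fiberEquiv G) (x, h)).2‖) := hR.prod
  have hle : ∀ x : G, ‖conv a b x‖ ≤ ∑' h : G,
      ‖a ((fiberEquiv G) (x, h)).1‖ * ‖b ((fiberEquiv G) (x, h)).2‖ := by
    intro x
    have h1 := norm_tsum_le_tsum_norm (summable_fiber ha hb x)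
    have h2 : (∑' h : G, ‖a h * b (h⁻¹ * x)‖) = ∑' h : G,
        ‖a ((fiberEquiv G) (x, h)).1‖ * ‖b ((fiberEquiv G) (x, h)).2‖ := by
      congr 1
      funext h
      simp [fiberEquiv]
    rw [← h2]
    exact h1
  have hsum : Summable (fun g => ‖conv a b g‖) :=
    Summable.of_nonneg_of_le (fun g => norm_nonneg _) hle hF
  refine ⟨hsum, ?_⟩
  calc ∑' g, ‖conv a b g‖ ≤ ∑' x : G, ∑' h : G,
        ‖a ((fiberEquiv G) (x, h)).1‖ * ‖b ((fiberEquiv G) (x, h)).2‖ :=
        hsum.tsum_le_tsum hle hF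
    _ = ∑' q : G × G, ‖a ((fiberEquiv G) q).1‖ * ‖b ((fiberEquiv G) q).2‖ := hR.tsum_prod.symm
    _ = ∑' p : G × G, ‖a p.1‖ * ‖b p.2‖ :=
        (fiberEquiv G).tsum_eq (fun p : G × G => ‖a p.1‖ * ‖b p.2‖)
    _ = (∑' g, ‖a g‖) * (∑' g, ‖b g‖) :=
        (tsum_mul_tsum_of_summable_norm (f := fun g => ‖a g‖) (g := fun g => ‖b g‖)
          (by simpa using ha) (by simpa using hb)).symm




theorem conv_assoc_fun {a b c : G → ℂ} (ha : Summable fun g => ‖a g‖)
    (hb : Summable fun g => ‖b g‖) (hc : Summable fun g => ‖c g‖) :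
    conv (conv a b) c = conv a (conv b c) := by
  funext g
  have hw : ∀ x : G, ‖c (x⁻¹ * g)‖ ≤ ∑' k, ‖c k‖ :=
    fun x => norm_le_tsum_norm_of_summable hc _
  have hS := summable_weighted_prod ha hb (fun x => c (x⁻¹ * g)) _ hw
  have h1 : conv (conv a b) c g = ∑' x, c (x⁻¹ * g) * conv a b x := by
    show ∑' h, conv a b h * c (h⁻¹ * g) = _
    congr 1
    funext x
    ring
  rw [h1, tsum_weighted_conv ha hb (fun x => c (x⁻¹ * g)) _ hw, hS.tsum_prod]
  show _ = ∑' h, a h * conv b c (h⁻¹ * g)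
  congr 1
  funext h
  show _ = a h * ∑' m, b m * c (m⁻¹ * (h⁻¹ * g))
  rw [← tsum_mul_left]
  congr 1
  funext m
  simp only [mul_inv_rev, mul_assoc]
  ring

theorem one_conv_fun [DecidableEq G] (a : G → ℂ) :
    conv (fun g => if g = 1 then (1 : ℂ) else 0) a = a := by
  funext g
  show ∑' h, (if h = 1 then (1 : ℂ) else 0) * a (h⁻¹ * g) = a g
  rw [tsum_eq_single 1]
  · simp
  · intro h hh
    simp [hh]

theorem conv_one_fun [DecidableEq G] (a : G → ℂ) :
    conv a (fun g => if g = 1 then (1 : ℂ) else 0) = a := by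
  funext g
  show ∑' h, a h * (if h⁻¹ * g = 1 then (1 : ℂ) else 0) = a g
  rw [tsum_eq_single g]
  · simp
  · intro h hh
    have : h⁻¹ * g ≠ 1 := by
      intro hcon
      apply hh
      have := inv_mul_eq_one.mp hcon
      exact this
    simp [this]

theorem conv_add_fun {a b c : G → ℂ} (ha : Summable fun g => ‖a g‖)
    (hb : Summable fun g => ‖b g‖) (hc : Summable fun g => ‖c g‖) :
    conv a (b + c) = conv a b + conv a c := by
  funext g
  show ∑' h, a h * (b (h⁻¹ * g) + c (h⁻¹ * g)) = (∑' h, a h * b (h⁻¹ * g)) + ∑' h, a h * c (h⁻¹ * g)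
  rw [← (summable_fiber ha hb g).of_norm.tsum_add (summable_fiber ha hc g).of_norm]
  congr 1
  funext h
  ring

theorem add_conv_fun {a b c : G → ℂ} (ha : Summable fun g => ‖a g‖)
    (hb : Summable fun g => ‖b g‖) (hc : Summable fun g => ‖c g‖) :
    conv (a + b) c = conv a c + conv b c := by
  funext g
  show ∑' h, (a h + b h) * c (h⁻¹ * g) = (∑' h, a h * c (h⁻¹ * g)) + ∑' h, b h * c (h⁻¹ * g)
  rw [← (summable_fiber ha hc g).of_norm.tsum_add (summable_fiber hb hc g).of_norm]
  congr 1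
  funext h
  ring

/-- sum of a function over a conjugacy class, written with an indicator weight -/
noncomputable def classWeight (g₀ : G) : G → ℂ :=
  Set.indicator {x : G | IsConj g₀ x} (fun _ => (1 : ℂ))

theorem norm_classWeight_le (g₀ x : G) : ‖classWeight g₀ x‖ ≤ 1 := by
  unfold classWeight
  by_cases h : x ∈ {x : G | IsConj g₀ x}
  · rw [Set.indicator_of_mem h]; simp
  · rw [Set.indicator_of_notMem h]; simp

theorem classWeight_mul_comm (g₀ h k : G) : classWeight g₀ (h * k) = classWeight g₀ (k * h) := by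
  unfold classWeight
  have hiff : IsConj g₀ (h * k) ↔ IsConj g₀ (k * h) := by
    have hc : IsConj (h * k) (k * h) := by
      rw [isConj_iff]
      exact ⟨k, by group⟩
    exact ⟨fun h1 => h1.trans hc, fun h1 => h1.trans hc.symm⟩
  by_cases h1 : IsConj g₀ (h * k)
  · rw [Set.indicator_of_mem (show h * k ∈ {x : G | IsConj g₀ x} from h1),
      Set.indicator_of_mem (show k * h ∈ {x : G | IsConj g₀ x} from hiff.mp h1)]
  · rw [Set.indicator_of_notMem (show h * k ∉ {x : G | IsConj g₀ x} from h1),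
      Set.indicator_of_notMem (show k * h ∉ {x : G | IsConj g₀ x} from fun h2 => h1 (hiff.mpr h2))]

theorem classTrace_conv_comm (g₀ : G) {a b : G → ℂ} (ha : Summable fun g => ‖a g‖)
    (hb : Summable fun g => ‖b g‖) :
    ∑' x, classWeight g₀ x * conv a b x = ∑' x, classWeight g₀ x * conv b a x := by
  rw [tsum_weighted_conv ha hb _ 1 (norm_classWeight_le g₀),
    tsum_weighted_conv hb ha _ 1 (norm_classWeight_le g₀)]
  rw [← (Equiv.prodComm G G).tsum_eq
    (fun p : G × G => classWeight g₀ (p.1 * p.2) * (b p.1 * a p.2))]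
  congr 1
  funext p
  simp only [Equiv.prodComm_apply, Prod.fst_swap, Prod.snd_swap]
  rw [classWeight_mul_comm g₀ p.2 p.1]
  ring

end Vale.Agent.Lib.Helper4
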