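import Mathlib
import Vale.Agent.Lib.Helper4.IdempotentTrace
import Vale.Agent.Lib.Helper4.L1Conv

namespace Vale.Agent.Lib.Helper4

open Filter Topology


open Classical in
/-- the function equal to `1` at the identity and `0` elsewhere -/
noncomputable def deltaOne (G : Type*) [Group G] : G → ℂ := fun g => if g = 1 then (1 : ℂ) else 0

theorem summable_deltaOne (G : Type*) [Group G] : Summable (fun g => ‖deltaOne G g‖) := by
  classical
  apply summable_of_ne_finset_zero (s := {1})
  intro g hg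
  have : g ≠ 1 := by simpa using hg
  simp [deltaOne, this]

/-- the type of absolutely summable complex functions on a group `G` (the elements of `ℓ¹(G)`) -/
def L1 (G : Type*) [Group G] : Type _ := {a : G → ℂ // Summable (fun g => ‖a g‖)}

namespace L1

variable {G : Type*} [Group G]

instance : Zero (L1 G) := ⟨⟨0, by simp⟩⟩

instance : Add (L1 G) :=
  ⟨fun a b => ⟨a.1 + b.1, Summable.of_nonneg_of_le (fun _ => norm_nonneg _)
    (fun _ => norm_add_le _ _) (a.2.add b.2)⟩⟩

instance : Neg (L1 G) := ⟨fun a => ⟨-a.1, by simpa using a.2⟩⟩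

noncomputable instance : Mul (L1 G) :=
  ⟨fun a b => ⟨conv a.1 b.1, (summable_norm_conv a.2 b.2).1⟩⟩

noncomputable instance : One (L1 G) := ⟨⟨deltaOne G, summable_deltaOne G⟩⟩

theorem val_add (a b : L1 G) : (a + b).1 = a.1 + b.1 := rfl
theorem val_neg (a : L1 G) : (-a).1 = -a.1 := rfl
theorem val_zero : (0 : L1 G).1 = 0 := rfl
theorem val_mul (a b : L1 G) : (a * b).1 = conv a.1 b.1 := rfl
theorem val_one : (1 : L1 G).1 = deltaOne G := rfl

noncomputable instance : Ring (L1 G) :=
  Ring.ofMinimalAxioms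
    (fun a b c => Subtype.ext (add_assoc a.1 b.1 c.1))
    (fun a => Subtype.ext (zero_add a.1))
    (fun a => Subtype.ext (neg_add_cancel a.1))
    (fun a b c => Subtype.ext (conv_assoc_fun a.2 b.2 c.2))
    (fun a => Subtype.ext (by classical exact one_conv_fun a.1))
    (fun a => Subtype.ext (by classical exact conv_one_fun a.1))
    (fun a b c => Subtype.ext (conv_add_fun a.2 b.2 c.2))
    (fun a b c => Subtype.ext (add_conv_fun a.2 b.2 c.2))

theorem val_sub (a b : L1 G) : (a - b).1 = a.1 - b.1 := by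
  rw [sub_eq_add_neg, val_add, val_neg, sub_eq_add_neg]

/-- the coercion to functions as an additive homomorphism -/
def valHom (G : Type*) [Group G] : L1 G →+ (G → ℂ) where
  toFun a := a.1
  map_zero' := rfl
  map_add' _ _ := rfl

/-- the `ℓ¹` norm -/
noncomputable def gauge (a : L1 G) : ℝ := ∑' g, ‖a.1 g‖

theorem gauge_nonneg (a : L1 G) : 0 ≤ gauge a := tsum_nonneg (fun _ => norm_nonneg _)

theorem gauge_mul_le (a b : L1 G) : gauge (a * b) ≤ gauge a * gauge b :=
  (summable_norm_conv a.2 b.2).2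

theorem gauge_zero : gauge (0 : L1 G) = 0 := by
  simp [gauge, val_zero]

theorem gauge_add_le (a b : L1 G) : gauge (a + b) ≤ gauge a + gauge b := by
  unfold gauge
  rw [← a.2.tsum_add b.2]
  exact (a + b).2.tsum_le_tsum (fun g => norm_add_le _ _) (a.2.add b.2)

theorem summable_classWeight_mul (g₀ : G) (a : L1 G) :
    Summable (fun x => classWeight g₀ x * a.1 x) := by
  apply Summable.of_norm_bounded a.2
  intro x
  rw [norm_mul]
  calc ‖classWeight g₀ x‖ * ‖a.1 x‖ ≤ 1 * ‖a.1 x‖ :=
        mul_le_mul_of_nonneg_right (norm_classWeight_le g₀ x) (norm_nonneg _)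
    _ = ‖a.1 x‖ := one_mul _

/-- the sum of an `ℓ¹` function over the conjugacy class of `g₀` -/
noncomputable def classTrace (g₀ : G) : L1 G →+ ℂ where
  toFun a := ∑' x, classWeight g₀ x * a.1 x
  map_zero' := by simp [val_zero]
  map_add' a b := by
    rw [← (summable_classWeight_mul g₀ a).tsum_add (summable_classWeight_mul g₀ b)]
    congr 1
    funext x
    rw [val_add, Pi.add_apply, mul_add]

theorem classTrace_apply (g₀ : G) (a : L1 G) :
    classTrace g₀ a = ∑' x, classWeight g₀ x * a.1 x := rfl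

theorem classTrace_mul_comm (g₀ : G) (a b : L1 G) :
    classTrace g₀ (a * b) = classTrace g₀ (b * a) :=
  classTrace_conv_comm g₀ a.2 b.2

theorem norm_classTrace_le (g₀ : G) (a : L1 G) : ‖classTrace g₀ a‖ ≤ gauge a := by
  have hs : Summable (fun x => ‖classWeight g₀ x * a.1 x‖) :=
    Summable.of_nonneg_of_le (fun _ => norm_nonneg _) (fun x => by
      rw [norm_mul]
      calc ‖classWeight g₀ x‖ * ‖a.1 x‖ ≤ 1 * ‖a.1 x‖ :=
            mul_le_mul_of_nonneg_right (norm_classWeight_le g₀ x) (norm_nonneg _)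
        _ = ‖a.1 x‖ := one_mul _) a.2
  calc ‖classTrace g₀ a‖ ≤ ∑' x, ‖classWeight g₀ x * a.1 x‖ := norm_tsum_le_tsum_norm hs
    _ ≤ ∑' x, ‖a.1 x‖ := hs.tsum_le_tsum (fun x => by
      rw [norm_mul]
      calc ‖classWeight g₀ x‖ * ‖a.1 x‖ ≤ 1 * ‖a.1 x‖ :=
            mul_le_mul_of_nonneg_right (norm_classWeight_le g₀ x) (norm_nonneg _)
        _ = ‖a.1 x‖ := one_mul _) a.2

end L1



section twist

variable {G : Type*} [Group G]

/-- the unimodular weight `exp(i s φ(g))` -/
noncomputable def twistWeight (φ : G → ℝ) (s : ℝ) (g : G) : ℂ :=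
  Complex.exp (((s * φ g : ℝ) : ℂ) * Complex.I)

omit [Group G] in
theorem norm_twistWeight (φ : G → ℝ) (s : ℝ) (g : G) : ‖twistWeight φ s g‖ = 1 :=
  Complex.norm_exp_ofReal_mul_I _

theorem twistWeight_mul (φ : G → ℝ) (hφ : ∀ x y, φ (x * y) = φ x + φ y) (s : ℝ) (x y : G) :
    twistWeight φ s (x * y) = twistWeight φ s x * twistWeight φ s y := by
  unfold twistWeight
  rw [← Complex.exp_add, hφ]
  congr 1
  push_cast
  ring

theorem twistWeight_one (φ : G → ℝ) (hφ : ∀ x y, φ (x * y) = φ x + φ y) (s : ℝ) :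
    twistWeight φ s 1 = 1 := by
  have h1 : φ 1 = 0 := by
    have := hφ 1 1
    rw [mul_one] at this
    linarith
  unfold twistWeight
  rw [h1]
  simp

theorem twistWeight_conj (φ : G → ℝ) (hφ : ∀ x y, φ (x * y) = φ x + φ y) (s : ℝ) (g₀ x : G)
    (hx : IsConj g₀ x) : twistWeight φ s x = twistWeight φ s g₀ := by
  rw [isConj_iff] at hx
  obtain ⟨c, hc⟩ := hx
  have h1 : φ (c⁻¹) = - φ c := by
    have h0 : φ 1 = 0 := by
      have := hφ 1 1
      rw [mul_one] at this
      linarith
    have := hφ c c⁻¹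
    rw [mul_inv_cancel, h0] at this
    linarith
  have : φ x = φ g₀ := by
    rw [← hc, hφ, hφ, h1]
    ring
  unfold twistWeight
  rw [this]

namespace L1

/-- multiplication by the weight `exp(i s φ)`, a ring endomorphism of `ℓ¹(G)` when `φ` is
additive -/
noncomputable def twistHom (φ : G → ℝ) (hφ : ∀ x y, φ (x * y) = φ x + φ y) (s : ℝ) :
    L1 G →+* L1 G where
  toFun a := ⟨fun g => twistWeight φ s g * a.1 g, by
    simpa [norm_mul, norm_twistWeight] using a.2⟩
  map_one' := by
    apply Subtype.ext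
    funext g
    show twistWeight φ s g * deltaOne G g = deltaOne G g
    by_cases hg : g = 1
    · subst hg
      rw [twistWeight_one φ hφ s, one_mul]
    · simp [deltaOne, hg]
  map_mul' a b := by
    apply Subtype.ext
    funext g
    show twistWeight φ s g * (∑' h, a.1 h * b.1 (h⁻¹ * g))
      = ∑' h, (twistWeight φ s h * a.1 h) * (twistWeight φ s (h⁻¹ * g) * b.1 (h⁻¹ * g))
    rw [← tsum_mul_left]
    congr 1
    funext h
    have : twistWeight φ s g = twistWeight φ s h * twistWeight φ s (h⁻¹ * g) := by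
      rw [← twistWeight_mul φ hφ, mul_inv_cancel_left]
    rw [this]
    ring
  map_zero' := by
    apply Subtype.ext
    funext g
    show twistWeight φ s g * (0 : G → ℂ) g = (0 : G → ℂ) g
    simp
  map_add' a b := by
    apply Subtype.ext
    funext g
    show twistWeight φ s g * (a.1 g + b.1 g) = twistWeight φ s g * a.1 g + twistWeight φ s g * b.1 g
    ring

theorem twistHom_val (φ : G → ℝ) (hφ : ∀ x y, φ (x * y) = φ x + φ y) (s : ℝ) (a : L1 G) (g : G) :
    (twistHom φ hφ s a).1 g = twistWeight φ s g * a.1 g := rfl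

theorem classTrace_twistHom (φ : G → ℝ) (hφ : ∀ x y, φ (x * y) = φ x + φ y) (s : ℝ) (g₀ : G)
    (a : L1 G) : classTrace g₀ (twistHom φ hφ s a) = twistWeight φ s g₀ * classTrace g₀ a := by
  rw [classTrace_apply, classTrace_apply, ← tsum_mul_left]
  congr 1
  funext x
  rw [twistHom_val]
  by_cases hx : IsConj g₀ x
  · rw [twistWeight_conj φ hφ s g₀ x hx]
    ring
  · have : classWeight g₀ x = 0 := by
      unfold classWeight
      exact Set.indicator_of_notMem (show x ∉ {x : G | IsConj g₀ x} from hx) _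
    rw [this]
    ring

theorem tendsto_gauge_twistHom_sub (φ : G → ℝ) (hφ : ∀ x y, φ (x * y) = φ x + φ y) (a : L1 G) :
    Tendsto (fun s : ℝ => gauge (twistHom φ hφ s a - a)) (𝓝 0) (𝓝 0) := by
  have key : Tendsto (fun s : ℝ => ∑' g, ‖twistWeight φ s g * a.1 g - a.1 g‖) (𝓝 0)
      (𝓝 (∑' _ : G, (0 : ℝ))) := by
    apply tendsto_tsum_of_dominated_convergence (bound := fun g => 2 * ‖a.1 g‖) (a.2.mul_left 2)
    · intro g
      have hc : Continuous (fun s : ℝ => ‖twistWeight φ s g * a.1 g - a.1 g‖) := by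
        unfold twistWeight
        fun_prop
      have h0 : ‖twistWeight φ 0 g * a.1 g - a.1 g‖ = 0 := by
        simp [twistWeight]
      exact hc.tendsto' 0 0 h0
    · refine Eventually.of_forall (fun s g => ?_)
      rw [norm_norm]
      calc ‖twistWeight φ s g * a.1 g - a.1 g‖ ≤ ‖twistWeight φ s g * a.1 g‖ + ‖a.1 g‖ :=
            norm_sub_le _ _
        _ = 2 * ‖a.1 g‖ := by rw [norm_mul, norm_twistWeight]; ring
  rw [tsum_zero] at key
  refine key.congr (fun s => ?_)
  unfold gauge
  congr 1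

end L1


end twist



/-- traces of idempotent matrices that are close in the entrywise sum gauge agree -/
theorem matrix_trace_eq_of_idem_close {A : Type*} [Ring A] (q : ℕ) (τ : A →+ ℂ)
    (hτ : ∀ a b : A, τ (a * b) = τ (b * a)) (N : A → ℝ) (hN0 : ∀ a, 0 ≤ N a)
    (hNzero : N 0 = 0) (hNadd : ∀ a b, N (a + b) ≤ N a + N b)
    (hNmul : ∀ a b, N (a * b) ≤ N a * N b) (hK : ∀ a, ‖τ a‖ ≤ N a)
    (e f : Matrix (Fin q) (Fin q) A) (he : e * e = e) (hf : f * f = f)
    (hclose : ∑ i, ∑ j, N ((f - e) i j) < 1) :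
    ∑ i, τ (f i i) = ∑ i, τ (e i i) := by
  have hmain := trace_eq_of_idem_close (A := Matrix (Fin q) (Fin q) A)
    (τ.comp (Matrix.traceAddMonoidHom (Fin q) A)) ?_ (fun m => ∑ i, ∑ j, N (m i j))
    ?_ ?_ 1 ?_ e f he hf hclose
  · simpa [Matrix.trace] using hmain
  · intro m m'
    simp only [AddMonoidHom.comp_apply, Matrix.traceAddMonoidHom_apply, Matrix.trace,
      Matrix.diag_apply, Matrix.mul_apply, map_sum]
    rw [Finset.sum_comm]
    apply Finset.sum_congr rfl
    intro j _
    apply Finset.sum_congr rfl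
    intro i _
    exact hτ _ _
  · intro m
    exact Finset.sum_nonneg (fun i _ => Finset.sum_nonneg (fun j _ => hN0 _))
  · intro m m'
    have hsub : ∀ i k, N ((m * m') i k) ≤ ∑ j, N (m i j) * N (m' j k) := by
      intro i k
      rw [Matrix.mul_apply]
      calc N (∑ j, m i j * m' j k) ≤ ∑ j, N (m i j * m' j k) :=
            Finset.le_sum_of_subadditive N hNzero.le hNadd _ _
        _ ≤ ∑ j, N (m i j) * N (m' j k) := Finset.sum_le_sum (fun j _ => hNmul _ _)
    calc ∑ i, ∑ k, N ((m * m') i k) ≤ ∑ i, ∑ k, ∑ j, N (m i j) * N (m' j k) :=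
          Finset.sum_le_sum (fun i _ => Finset.sum_le_sum (fun k _ => hsub i k))
      _ = ∑ i, ∑ j, N (m i j) * ∑ k, N (m' j k) := by
          apply Finset.sum_congr rfl
          intro i _
          rw [Finset.sum_comm]
          apply Finset.sum_congr rfl
          intro j _
          rw [Finset.mul_sum]
      _ ≤ ∑ i, ∑ j, N (m i j) * ∑ j', ∑ k, N (m' j' k) := by
          apply Finset.sum_le_sum
          intro i _
          apply Finset.sum_le_sum
          intro j _
          apply mul_le_mul_of_nonneg_left _ (hN0 _)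
          exact Finset.single_le_sum (f := fun j' => ∑ k, N (m' j' k))
            (fun j' _ => Finset.sum_nonneg (fun k _ => hN0 _)) (Finset.mem_univ j)
      _ = (∑ i, ∑ j, N (m i j)) * ∑ j', ∑ k, N (m' j' k) := by
          rw [Finset.sum_mul]
          apply Finset.sum_congr rfl
          intro i _
          rw [Finset.sum_mul]
  · intro m
    simp only [AddMonoidHom.comp_apply, Matrix.traceAddMonoidHom_apply, Matrix.trace,
      Matrix.diag_apply, map_sum, one_mul]
    calc ‖∑ i, τ (m i i)‖ ≤ ∑ i, ‖τ (m i i)‖ := norm_sum_le _ _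
      _ ≤ ∑ i, N (m i i) := Finset.sum_le_sum (fun i _ => hK _)
      _ ≤ ∑ i, ∑ j, N (m i j) := Finset.sum_le_sum (fun i _ =>
          Finset.single_le_sum (f := fun j => N (m i j)) (fun j _ => hN0 _) (Finset.mem_univ i))

end Vale.Agent.Lib.Helper4
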