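import Vale.Agent.Lib.P064B.Host
import Vale.Agent.Lib.P064D.Degree

/-!
P064, D2 and D3: the counting inequality and the comparison of the two expectation thresholds for
every host graph, from the bounded degree case and the degree bound `degree_le_of_hyp`.
-/

namespace Vale.Agent.Lib.Helper4.P064D
open SimpleGraph Finset
open Vale.Agent.Lib.Helper7.P064M

/-- D2: counting inequality for every host (from `bounded_degree_copies`). -/
theorem general_copies {n : ℕ} (H : SimpleGraph (Fin n)) (q : ℝ) (hq0 : 0 ≤ q)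
    (hyp : ∀ F : SimpleGraph (Fin n), F ≤ H →
      1 ≤ ((⊤ : SimpleGraph (Fin n)).copyCount F : ℝ) * q ^ F.edgeSet.ncard)
    (F : SimpleGraph (Fin n)) :
    (H.copyCount F : ℝ) ≤
      ((⊤ : SimpleGraph (Fin n)).copyCount F : ℝ) *
        (min 1 (89 * ((max ⌈6 * (n : ℝ) * q⌉₊ (Nat.log 2 n) : ℕ) : ℝ) * q)) ^ F.edgeSet.ncard :=
  Vale.Agent.Lib.P064B.bounded_degree_copies H _ (Vale.Agent.Lib.P064D.degree_le_of_hyp H q hq0 hyp) q hq0 hyp F

/-- D3: threshold form for every host. -/
theorem general_threshold {n : ℕ} (H : SimpleGraph (Fin n)) :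
    fracExpThreshold H ≤
      178 * (12 * (n : ℝ) * expThreshold H + (Nat.log 2 n : ℝ) + 1) * expThreshold H := by
  classical
  set D : ℕ := Finset.univ.sup (fun v : Fin n => (H.neighborSet v).ncard) with hD
  have hDle : ∀ v, (H.neighborSet v).ncard ≤ D := fun v =>
    Finset.le_sup (f := fun v : Fin n => (H.neighborSet v).ncard) (Finset.mem_univ v)
  have h1 := Vale.Agent.Lib.P064B.bounded_degree_threshold H D hDle
  have hp0 : 0 ≤ expThreshold H :=
    le_csInf ⟨1, one_mem_exp H⟩ (fun q hq => hq.1)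
  have hn0 : (0 : ℝ) ≤ (n : ℝ) := Nat.cast_nonneg n
  have key : ∀ q ∈ {p : ℝ | 0 ≤ p ∧ p ≤ 1 ∧
      ∀ F : SimpleGraph (Fin n), F ≤ H → 1 / 2 ≤ expCopies F p},
      D ≤ max ⌈12 * (n : ℝ) * q⌉₊ (Nat.log 2 n) := by
    intro q hq
    obtain ⟨hq0, -, hq2⟩ := hq
    have hq'0 : 0 ≤ min 1 (2 * q) := le_min zero_le_one (by positivity)
    refine Finset.sup_le (fun v _ => ?_)
    have h := Vale.Agent.Lib.P064D.degree_le_of_hyp H (min 1 (2 * q)) hq'0 (hyp_double H q hq0 hq2) v
    refine h.trans (max_le_max (Nat.ceil_mono ?_) le_rfl)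
    have h2 : min 1 (2 * q) ≤ 2 * q := min_le_right _ _
    have h6 : (0 : ℝ) ≤ 6 * (n : ℝ) := by positivity
    calc 6 * (n : ℝ) * min 1 (2 * q) ≤ 6 * (n : ℝ) * (2 * q) :=
          mul_le_mul_of_nonneg_left h2 h6
      _ = 12 * (n : ℝ) * q := by ring
  have hDmax : (D : ℝ) ≤ 12 * (n : ℝ) * expThreshold H + (Nat.log 2 n : ℝ) + 1 := by
    have hlog0 : (0 : ℝ) ≤ (Nat.log 2 n : ℝ) := Nat.cast_nonneg _
    by_cases hlog : D ≤ Nat.log 2 n
    · have h2 : (D : ℝ) ≤ (Nat.log 2 n : ℝ) := by exact_mod_cast hlog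
      have h3 : 0 ≤ 12 * (n : ℝ) * expThreshold H := by positivity
      linarith
    · have hq : ∀ q ∈ {p : ℝ | 0 ≤ p ∧ p ≤ 1 ∧
          ∀ F : SimpleGraph (Fin n), F ≤ H → 1 / 2 ≤ expCopies F p},
          (D : ℝ) - 1 ≤ 12 * (n : ℝ) * q := by
        intro q hq
        have hD' : D ≤ ⌈12 * (n : ℝ) * q⌉₊ := by
          rcases le_max_iff.mp (key q hq) with h | h
          · exact h
          · exact absurd h hlog
        have hq0 : 0 ≤ q := hq.1
        have hlt : (⌈12 * (n : ℝ) * q⌉₊ : ℝ) < 12 * (n : ℝ) * q + 1 :=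
          Nat.ceil_lt_add_one (by positivity)
        have h2 : (D : ℝ) ≤ (⌈12 * (n : ℝ) * q⌉₊ : ℝ) := by exact_mod_cast hD'
        linarith
      have h5 : (D : ℝ) - 1 ≤ 12 * (n : ℝ) * expThreshold H := by
        rcases Nat.eq_zero_or_pos n with h0 | h0
        · have h := hq 1 (one_mem_exp H)
          have hn' : (n : ℝ) = 0 := by exact_mod_cast h0
          rw [hn'] at h ⊢
          linarith
        · have hnr : (0 : ℝ) < (n : ℝ) := by exact_mod_cast h0
          have hK : (0 : ℝ) < 12 * (n : ℝ) := by positivity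
          have h6 : ((D : ℝ) - 1) / (12 * (n : ℝ)) ≤ expThreshold H := by
            refine le_csInf ⟨1, one_mem_exp H⟩ (fun q hq' => ?_)
            rw [div_le_iff₀ hK]
            have := hq q hq'
            linarith
          rw [div_le_iff₀ hK] at h6
          linarith
      linarith
  calc fracExpThreshold H ≤ 178 * (D : ℝ) * expThreshold H := h1
    _ ≤ 178 * (12 * (n : ℝ) * expThreshold H + (Nat.log 2 n : ℝ) + 1) * expThreshold H := by
        refine mul_le_mul_of_nonneg_right ?_ hp0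
        linarith

end Vale.Agent.Lib.Helper4.P064D
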