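import Mathlib
import Vale.Agent.Lib.Helper4.IdempotentTrace
import Vale.Agent.Lib.Helper4.L1Conv
import Vale.Agent.Lib.Helper4.L1Ring

namespace Vale.Agent.Lib.Helper4

open Filter Topology

variable {G : Type*} [Group G]

/-- reindexing of a summable double family over a group -/
theorem tsum_fiber_reindex {T : G × G → ℂ} (hT : Summable T) :
    ∑' m, ∑' h, T (h, h⁻¹ * m) = ∑' h, ∑' n, T (h, n) := by
  have h1 : ∑' p : G × G, T p = ∑' h, ∑' n, T (h, n) := hT.tsum_prod
  have hS' : Summable (fun q : G × G => T ((fiberEquiv G) q)) :=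
    (fiberEquiv G).summable_iff.mpr hT
  have h2 : ∑' q : G × G, T ((fiberEquiv G) q) = ∑' m, ∑' h, T ((fiberEquiv G) (m, h)) :=
    hS'.tsum_prod
  have h3 : ∑' q : G × G, T ((fiberEquiv G) q) = ∑' p : G × G, T p := (fiberEquiv G).tsum_eq T
  rw [← h1, ← h3, h2]
  rfl

theorem summable_real_fiber {m m' : G → ℝ} (hm : Summable m) (hm' : Summable m')
    (h0 : ∀ g, 0 ≤ m g) (h0' : ∀ g, 0 ≤ m' g) (g : G) :
    Summable (fun h => m h * m' (h⁻¹ * g)) := by
  refine Summable.of_nonneg_of_le (fun h => mul_nonneg (h0 h) (h0' _)) (fun h => ?_)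
    (hm.mul_right (∑' k, m' k))
  exact mul_le_mul_of_nonneg_left (hm'.le_tsum _ (fun k _ => h0' k)) (h0 h)

theorem summable_real_conv {m m' : G → ℝ} (hm : Summable m) (hm' : Summable m')
    (h0 : ∀ g, 0 ≤ m g) (h0' : ∀ g, 0 ≤ m' g) :
    Summable (fun g => ∑' h, m h * m' (h⁻¹ * g)) ∧
      ∑' g, ∑' h, m h * m' (h⁻¹ * g) = (∑' g, m g) * (∑' g, m' g) := by
  have hP : Summable (fun p : G × G => m p.1 * m' p.2) :=
    Summable.mul_of_nonneg hm hm' h0 h0'
  have hR : Summable (fun q : G × G => m ((fiberEquiv G) q).1 * m' ((fiberEquiv G) q).2) :=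
    (fiberEquiv G).summable_iff.mpr hP
  refine ⟨hR.prod, ?_⟩
  calc ∑' g, ∑' h, m h * m' (h⁻¹ * g)
      = ∑' q : G × G, m ((fiberEquiv G) q).1 * m' ((fiberEquiv G) q).2 := hR.tsum_prod.symm
    _ = ∑' p : G × G, m p.1 * m' p.2 :=
        (fiberEquiv G).tsum_eq (fun p : G × G => m p.1 * m' p.2)
    _ = (∑' g, m g) * (∑' g, m' g) := (hm.tsum_mul_tsum hm' hP).symm

/-- domination of a two-variable function by a summable function of the first variable -/
def Dominated (F : G → G → ℂ) : Prop := ∃ f : G → ℝ, Summable f ∧ ∀ g y, ‖F g y‖ ≤ f g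

/-- the supremum over the second variable of the absolute value -/
noncomputable def supNorm (F : G → G → ℂ) (g : G) : ℝ := ⨆ y, ‖F g y‖

omit [Group G] in
theorem supNorm_nonneg (F : G → G → ℂ) (g : G) : 0 ≤ supNorm F g :=
  Real.iSup_nonneg (fun _ => norm_nonneg _)

omit [Group G] in
theorem le_supNorm {F : G → G → ℂ} (hF : Dominated F) (g y : G) : ‖F g y‖ ≤ supNorm F g := by
  obtain ⟨f, _, hf⟩ := hF
  exact le_ciSup (f := fun y => ‖F g y‖) ⟨f g, by rintro _ ⟨y, rfl⟩; exact hf g y⟩ y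

omit [Group G] in
theorem supNorm_le {F : G → G → ℂ} {g : G} {b : ℝ} (hb : 0 ≤ b) (h : ∀ y, ‖F g y‖ ≤ b) :
    supNorm F g ≤ b := Real.iSup_le h hb

theorem summable_supNorm {F : G → G → ℂ} (hF : Dominated F) : Summable (supNorm F) := by
  obtain ⟨f, hfs, hf⟩ := hF
  refine Summable.of_nonneg_of_le (supNorm_nonneg F) (fun g => ?_) hfs
  exact supNorm_le ((norm_nonneg _).trans (hf g 1)) (hf g)

/-- twisted convolution: the second variable is moved by conjugation -/
noncomputable def xconv (F F' : G → G → ℂ) : G → G → ℂ :=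
  fun g y => ∑' h, F h y * F' (h⁻¹ * g) (h⁻¹ * y * h)

theorem xconv_summable {F F' : G → G → ℂ} (hF : Dominated F) (hF' : Dominated F') (g y : G) :
    Summable (fun h => ‖F h y * F' (h⁻¹ * g) (h⁻¹ * y * h)‖) := by
  refine Summable.of_nonneg_of_le (fun h => norm_nonneg _) (fun h => ?_)
    (summable_real_fiber (summable_supNorm hF) (summable_supNorm hF') (supNorm_nonneg F)
      (supNorm_nonneg F') g)
  rw [norm_mul]
  exact mul_le_mul (le_supNorm hF h y) (le_supNorm hF' _ _) (norm_nonneg _) (supNorm_nonneg F h)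

theorem norm_xconv_le {F F' : G → G → ℂ} (hF : Dominated F) (hF' : Dominated F') (g y : G) :
    ‖xconv F F' g y‖ ≤ ∑' h, supNorm F h * supNorm F' (h⁻¹ * g) := by
  calc ‖xconv F F' g y‖ ≤ ∑' h, ‖F h y * F' (h⁻¹ * g) (h⁻¹ * y * h)‖ :=
        norm_tsum_le_tsum_norm (xconv_summable hF hF' g y)
    _ ≤ ∑' h, supNorm F h * supNorm F' (h⁻¹ * g) :=
        (xconv_summable hF hF' g y).tsum_le_tsum (fun h => by
          rw [norm_mul]
          exact mul_le_mul (le_supNorm hF h y) (le_supNorm hF' _ _) (norm_nonneg _)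
            (supNorm_nonneg F h))
          (summable_real_fiber (summable_supNorm hF) (summable_supNorm hF') (supNorm_nonneg F)
            (supNorm_nonneg F') g)

theorem dominated_xconv {F F' : G → G → ℂ} (hF : Dominated F) (hF' : Dominated F') :
    Dominated (xconv F F') :=
  ⟨_, (summable_real_conv (summable_supNorm hF) (summable_supNorm hF') (supNorm_nonneg F)
    (supNorm_nonneg F')).1, norm_xconv_le hF hF'⟩

theorem xconv_assoc {F F' F'' : G → G → ℂ} (hF : Dominated F) (hF' : Dominated F')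
    (hF'' : Dominated F'') : xconv (xconv F F') F'' = xconv F (xconv F' F'') := by
  funext g y
  set T : G × G → ℂ := fun p =>
    F p.1 y * F' p.2 (p.1⁻¹ * y * p.1) *
      F'' ((p.1 * p.2)⁻¹ * g) ((p.1 * p.2)⁻¹ * y * (p.1 * p.2)) with hT
  have hTs : Summable T := by
    apply Summable.of_norm
    refine Summable.of_nonneg_of_le (fun p => norm_nonneg _) (fun p => ?_)
      ((Summable.mul_of_nonneg (summable_supNorm hF) (summable_supNorm hF') (supNorm_nonneg F)
        (supNorm_nonneg F')).mul_right (∑' k, supNorm F'' k))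
    rw [hT]
    simp only [norm_mul]
    exact mul_le_mul
      (mul_le_mul (le_supNorm hF _ _) (le_supNorm hF' _ _) (norm_nonneg _) (supNorm_nonneg F _))
      ((le_supNorm hF'' _ _).trans
        ((summable_supNorm hF'').le_tsum _ (fun k _ => supNorm_nonneg F'' k)))
      (norm_nonneg _) (mul_nonneg (supNorm_nonneg F _) (supNorm_nonneg F' _))
  have hL : xconv (xconv F F') F'' g y = ∑' m, ∑' h, T (h, h⁻¹ * m) := by
    show ∑' m, (∑' h, F h y * F' (h⁻¹ * m) (h⁻¹ * y * h)) * F'' (m⁻¹ * g) (m⁻¹ * y * m) = _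
    congr 1
    funext m
    rw [← tsum_mul_right]
    congr 1
    funext h
    simp only [hT, mul_inv_cancel_left]
  have hR : xconv F (xconv F' F'') g y = ∑' h, ∑' n, T (h, n) := by
    show ∑' h, F h y * (∑' n, F' n (h⁻¹ * y * h) *
      F'' (n⁻¹ * (h⁻¹ * g)) (n⁻¹ * (h⁻¹ * y * h) * n)) = _
    congr 1
    funext h
    rw [← tsum_mul_left]
    congr 1
    funext n
    simp only [hT, mul_inv_rev, mul_assoc]
  rw [hL, hR, tsum_fiber_reindex hTs]

open Classical in
/-- the unit of the twisted convolution: `1` at the identity (for every second variable) -/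
noncomputable def xone (G : Type*) [Group G] : G → G → ℂ :=
  fun g _ => if g = 1 then (1 : ℂ) else 0

theorem dominated_xone (G : Type*) [Group G] : Dominated (xone G) := by
  refine ⟨fun g => ‖deltaOne G g‖, summable_deltaOne G, fun g y => ?_⟩
  simp [xone, deltaOne]

theorem xone_xconv (F : G → G → ℂ) : xconv (xone G) F = F := by
  funext g y
  show ∑' h, xone G h y * F (h⁻¹ * g) (h⁻¹ * y * h) = F g y
  rw [tsum_eq_single 1]
  · simp [xone]
  · intro h hh
    simp [xone, hh]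

theorem xconv_xone (F : G → G → ℂ) : xconv F (xone G) = F := by
  funext g y
  show ∑' h, F h y * xone G (h⁻¹ * g) (h⁻¹ * y * h) = F g y
  rw [tsum_eq_single g]
  · simp [xone]
  · intro h hh
    have : h⁻¹ * g ≠ 1 := by
      intro hcon
      apply hh
      exact inv_mul_eq_one.mp hcon
    simp [xone, this]

omit [Group G] in
theorem dominated_add {F F' : G → G → ℂ} (hF : Dominated F) (hF' : Dominated F') :
    Dominated (F + F') := by
  obtain ⟨f, hfs, hf⟩ := hF
  obtain ⟨f', hfs', hf'⟩ := hF'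
  exact ⟨fun g => f g + f' g, hfs.add hfs', fun g y =>
    (norm_add_le _ _).trans (add_le_add (hf g y) (hf' g y))⟩

omit [Group G] in
theorem dominated_neg {F : G → G → ℂ} (hF : Dominated F) : Dominated (-F) := by
  obtain ⟨f, hfs, hf⟩ := hF
  exact ⟨f, hfs, fun g y => by simpa using hf g y⟩

omit [Group G] in
theorem dominated_zero : Dominated (0 : G → G → ℂ) :=
  ⟨fun _ => 0, summable_zero, fun g y => by simp⟩

theorem xconv_add {F F' F'' : G → G → ℂ} (hF : Dominated F) (hF' : Dominated F')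
    (hF'' : Dominated F'') : xconv F (F' + F'') = xconv F F' + xconv F F'' := by
  funext g y
  show ∑' h, F h y * (F' (h⁻¹ * g) (h⁻¹ * y * h) + F'' (h⁻¹ * g) (h⁻¹ * y * h))
    = (∑' h, F h y * F' (h⁻¹ * g) (h⁻¹ * y * h)) + ∑' h, F h y * F'' (h⁻¹ * g) (h⁻¹ * y * h)
  rw [← (xconv_summable hF hF' g y).of_norm.tsum_add (xconv_summable hF hF'' g y).of_norm]
  congr 1
  funext h
  ring

theorem add_xconv {F F' F'' : G → G → ℂ} (hF : Dominated F) (hF' : Dominated F')
    (hF'' : Dominated F'') : xconv (F + F') F'' = xconv F F'' + xconv F' F'' := by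
  funext g y
  show ∑' h, (F h y + F' h y) * F'' (h⁻¹ * g) (h⁻¹ * y * h)
    = (∑' h, F h y * F'' (h⁻¹ * g) (h⁻¹ * y * h)) + ∑' h, F' h y * F'' (h⁻¹ * g) (h⁻¹ * y * h)
  rw [← (xconv_summable hF hF'' g y).of_norm.tsum_add (xconv_summable hF' hF'' g y).of_norm]
  congr 1
  funext h
  ring

/-- the ring of dominated two-variable functions under twisted convolution (the `ℓ¹` crossed
product of bounded functions on `G` by the conjugation action of `G`) -/
def XP (G : Type*) [Group G] : Type _ := {F : G → G → ℂ // Dominated F}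

namespace XP

instance : Zero (XP G) := ⟨⟨0, dominated_zero⟩⟩
instance : Add (XP G) := ⟨fun a b => ⟨a.1 + b.1, dominated_add a.2 b.2⟩⟩
instance : Neg (XP G) := ⟨fun a => ⟨-a.1, dominated_neg a.2⟩⟩
noncomputable instance : Mul (XP G) := ⟨fun a b => ⟨xconv a.1 b.1, dominated_xconv a.2 b.2⟩⟩
noncomputable instance : One (XP G) := ⟨⟨xone G, dominated_xone G⟩⟩

theorem val_add (a b : XP G) : (a + b).1 = a.1 + b.1 := rfl
theorem val_neg (a : XP G) : (-a).1 = -a.1 := rfl
theorem val_zero : (0 : XP G).1 = 0 := rfl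
theorem val_mul (a b : XP G) : (a * b).1 = xconv a.1 b.1 := rfl
theorem val_one : (1 : XP G).1 = xone G := rfl

noncomputable instance : Ring (XP G) :=
  Ring.ofMinimalAxioms
    (fun a b c => Subtype.ext (add_assoc a.1 b.1 c.1))
    (fun a => Subtype.ext (zero_add a.1))
    (fun a => Subtype.ext (neg_add_cancel a.1))
    (fun a b c => Subtype.ext (xconv_assoc a.2 b.2 c.2))
    (fun a => Subtype.ext (xone_xconv a.1))
    (fun a => Subtype.ext (xconv_xone a.1))
    (fun a b c => Subtype.ext (xconv_add a.2 b.2 c.2))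
    (fun a b c => Subtype.ext (add_xconv a.2 b.2 c.2))

theorem val_sub (a b : XP G) : (a - b).1 = a.1 - b.1 := by
  rw [sub_eq_add_neg, val_add, val_neg, sub_eq_add_neg]

/-- the gauge: sum over the first variable of the supremum over the second -/
noncomputable def gauge (a : XP G) : ℝ := ∑' g, supNorm a.1 g

theorem gauge_nonneg (a : XP G) : 0 ≤ gauge a := tsum_nonneg (fun g => supNorm_nonneg a.1 g)

theorem gauge_zero : gauge (0 : XP G) = 0 := by
  have : ∀ g, supNorm (0 : XP G).1 g = 0 := by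
    intro g
    apply le_antisymm
    · exact supNorm_le le_rfl (fun y => by simp [val_zero])
    · exact supNorm_nonneg _ _
  simp [gauge, this]

theorem gauge_add_le (a b : XP G) : gauge (a + b) ≤ gauge a + gauge b := by
  unfold gauge
  rw [← (summable_supNorm a.2).tsum_add (summable_supNorm b.2)]
  refine (summable_supNorm (a + b).2).tsum_le_tsum (fun g => ?_)
    ((summable_supNorm a.2).add (summable_supNorm b.2))
  refine supNorm_le (add_nonneg (supNorm_nonneg _ _) (supNorm_nonneg _ _)) (fun y => ?_)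
  rw [val_add, Pi.add_apply, Pi.add_apply]
  exact (norm_add_le _ _).trans (add_le_add (le_supNorm a.2 g y) (le_supNorm b.2 g y))

theorem gauge_mul_le (a b : XP G) : gauge (a * b) ≤ gauge a * gauge b := by
  have hc := summable_real_conv (summable_supNorm a.2) (summable_supNorm b.2)
    (supNorm_nonneg a.1) (supNorm_nonneg b.1)
  unfold gauge
  rw [← hc.2]
  refine (summable_supNorm (a * b).2).tsum_le_tsum (fun g => ?_) hc.1
  refine supNorm_le (tsum_nonneg (fun h => mul_nonneg (supNorm_nonneg _ _) (supNorm_nonneg _ _)))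
    (fun y => ?_)
  exact norm_xconv_le a.2 b.2 g y

theorem summable_xtrace_term (g₀ : G) (a : XP G) :
    Summable (fun y => classWeight g₀ y * a.1 y y) := by
  apply Summable.of_norm_bounded (summable_supNorm a.2)
  intro y
  rw [norm_mul]
  calc ‖classWeight g₀ y‖ * ‖a.1 y y‖ ≤ 1 * supNorm a.1 y :=
        mul_le_mul (norm_classWeight_le g₀ y) (le_supNorm a.2 y y) (norm_nonneg _) zero_le_one
    _ = supNorm a.1 y := one_mul _

/-- the class trace on the crossed product: sum over the class of `g₀` of the diagonal values -/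
noncomputable def xtrace (g₀ : G) : XP G →+ ℂ where
  toFun a := ∑' y, classWeight g₀ y * a.1 y y
  map_zero' := by simp [val_zero]
  map_add' a b := by
    rw [← (summable_xtrace_term g₀ a).tsum_add (summable_xtrace_term g₀ b)]
    congr 1
    funext y
    rw [val_add, Pi.add_apply, Pi.add_apply, mul_add]

theorem xtrace_apply (g₀ : G) (a : XP G) :
    xtrace g₀ a = ∑' y, classWeight g₀ y * a.1 y y := rfl

theorem norm_xtrace_le (g₀ : G) (a : XP G) : ‖xtrace g₀ a‖ ≤ gauge a := by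
  have hle : ∀ y, ‖classWeight g₀ y * a.1 y y‖ ≤ supNorm a.1 y := by
    intro y
    rw [norm_mul]
    calc ‖classWeight g₀ y‖ * ‖a.1 y y‖ ≤ 1 * supNorm a.1 y :=
          mul_le_mul (norm_classWeight_le g₀ y) (le_supNorm a.2 y y) (norm_nonneg _) zero_le_one
      _ = supNorm a.1 y := one_mul _
  have hs : Summable (fun y => ‖classWeight g₀ y * a.1 y y‖) :=
    Summable.of_nonneg_of_le (fun _ => norm_nonneg _) hle (summable_supNorm a.2)
  calc ‖xtrace g₀ a‖ ≤ ∑' y, ‖classWeight g₀ y * a.1 y y‖ := norm_tsum_le_tsum_norm hs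
    _ ≤ ∑' y, supNorm a.1 y := hs.tsum_le_tsum hle (summable_supNorm a.2)

theorem xtrace_mul_eq (g₀ : G) (a b : XP G) :
    xtrace g₀ (a * b) = ∑' p : G × G,
      classWeight g₀ (p.1 * p.2) * (a.1 p.1 (p.1 * p.2) * b.1 p.2 (p.2 * p.1)) := by
  set S : G × G → ℂ := fun p =>
    classWeight g₀ (p.1 * p.2) * (a.1 p.1 (p.1 * p.2) * b.1 p.2 (p.2 * p.1)) with hS
  have hSs : Summable S := by
    apply Summable.of_norm
    refine Summable.of_nonneg_of_le (fun p => norm_nonneg _) (fun p => ?_)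
      (Summable.mul_of_nonneg (summable_supNorm a.2) (summable_supNorm b.2) (supNorm_nonneg a.1)
        (supNorm_nonneg b.1))
    rw [hS]
    simp only [norm_mul]
    calc ‖classWeight g₀ (p.1 * p.2)‖ * (‖a.1 p.1 (p.1 * p.2)‖ * ‖b.1 p.2 (p.2 * p.1)‖)
        ≤ 1 * (supNorm a.1 p.1 * supNorm b.1 p.2) :=
          mul_le_mul (norm_classWeight_le g₀ _)
            (mul_le_mul (le_supNorm a.2 _ _) (le_supNorm b.2 _ _) (norm_nonneg _)
              (supNorm_nonneg _ _))
            (mul_nonneg (norm_nonneg _) (norm_nonneg _)) zero_le_one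
      _ = supNorm a.1 p.1 * supNorm b.1 p.2 := one_mul _
  have h1 : xtrace g₀ (a * b) = ∑' y, ∑' h, S (h, h⁻¹ * y) := by
    show ∑' y, classWeight g₀ y * (∑' h, a.1 h y * b.1 (h⁻¹ * y) (h⁻¹ * y * h)) = _
    congr 1
    funext y
    rw [← tsum_mul_left]
    congr 1
    funext h
    simp only [hS, mul_inv_cancel_left]
  rw [h1, tsum_fiber_reindex hSs, ← hSs.tsum_prod]

theorem xtrace_mul_comm (g₀ : G) (a b : XP G) : xtrace g₀ (a * b) = xtrace g₀ (b * a) := by
  rw [xtrace_mul_eq, xtrace_mul_eq]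
  rw [← (Equiv.prodComm G G).tsum_eq
    (fun p : G × G => classWeight g₀ (p.1 * p.2) * (b.1 p.1 (p.1 * p.2) * a.1 p.2 (p.2 * p.1)))]
  congr 1
  funext p
  simp only [Equiv.prodComm_apply, Prod.fst_swap, Prod.snd_swap]
  rw [classWeight_mul_comm g₀ p.2 p.1]
  ring

/-- multiplication of an `ℓ¹` function by a weight of modulus at most one that is multiplicative
along the conjugation action; a ring homomorphism into the crossed product -/
noncomputable def wmap (u : G → G → ℂ) (hu : ∀ g y, ‖u g y‖ ≤ 1)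
    (hmul : ∀ g h y, u (g * h) y = u g y * u h (g⁻¹ * y * g)) (hone : ∀ y, u 1 y = 1) :
    L1 G →+* XP G where
  toFun a := ⟨fun g y => u g y * a.1 g, ⟨fun g => ‖a.1 g‖, a.2, fun g y => by
    rw [norm_mul]
    exact mul_le_of_le_one_left (norm_nonneg _) (hu g y)⟩⟩
  map_one' := by
    apply Subtype.ext
    funext g y
    show u g y * deltaOne G g = xone G g y
    by_cases hg : g = 1
    · subst hg
      simp [deltaOne, xone, hone]
    · simp [deltaOne, xone, hg]
  map_mul' a b := by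
    apply Subtype.ext
    funext g y
    show u g y * (∑' h, a.1 h * b.1 (h⁻¹ * g))
      = ∑' h, (u h y * a.1 h) * (u (h⁻¹ * g) (h⁻¹ * y * h) * b.1 (h⁻¹ * g))
    rw [← tsum_mul_left]
    congr 1
    funext h
    have : u g y = u h y * u (h⁻¹ * g) (h⁻¹ * y * h) := by
      rw [← hmul, mul_inv_cancel_left]
    rw [this]
    ring
  map_zero' := by
    apply Subtype.ext
    funext g y
    show u g y * (0 : G → ℂ) g = (0 : G → G → ℂ) g y
    simp
  map_add' a b := by
    apply Subtype.ext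
    funext g y
    show u g y * (a.1 g + b.1 g) = u g y * a.1 g + u g y * b.1 g
    ring

theorem wmap_val (u : G → G → ℂ) (hu : ∀ g y, ‖u g y‖ ≤ 1)
    (hmul : ∀ g h y, u (g * h) y = u g y * u h (g⁻¹ * y * g)) (hone : ∀ y, u 1 y = 1)
    (a : L1 G) (g y : G) : (wmap u hu hmul hone a).1 g y = u g y * a.1 g := rfl

theorem xtrace_wmap (g₀ : G) (u : G → G → ℂ) (hu : ∀ g y, ‖u g y‖ ≤ 1)
    (hmul : ∀ g h y, u (g * h) y = u g y * u h (g⁻¹ * y * g)) (hone : ∀ y, u 1 y = 1)
    (κ : ℂ) (hκ : ∀ y, IsConj g₀ y → u y y = κ) (a : L1 G) :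
    xtrace g₀ (wmap u hu hmul hone a) = κ * L1.classTrace g₀ a := by
  rw [xtrace_apply, L1.classTrace_apply, ← tsum_mul_left]
  congr 1
  funext y
  rw [wmap_val]
  by_cases hy : IsConj g₀ y
  · rw [hκ y hy]
    ring
  · have : classWeight g₀ y = 0 := by
      unfold classWeight
      exact Set.indicator_of_notMem (show y ∉ {x : G | IsConj g₀ x} from hy) _
    rw [this]
    ring

end XP

section cocycle

/-- the unimodular weight `exp(i s c(g,y))` -/
noncomputable def cocWeight (c : G → G → ℝ) (s : ℝ) (g y : G) : ℂ :=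
  Complex.exp (((s * c g y : ℝ) : ℂ) * Complex.I)

omit [Group G] in
theorem norm_cocWeight (c : G → G → ℝ) (s : ℝ) (g y : G) : ‖cocWeight c s g y‖ = 1 :=
  Complex.norm_exp_ofReal_mul_I _

theorem cocWeight_mul (c : G → G → ℝ)
    (hc : ∀ g h y, c (g * h) y = c g y + c h (g⁻¹ * y * g)) (s : ℝ) (g h y : G) :
    cocWeight c s (g * h) y = cocWeight c s g y * cocWeight c s h (g⁻¹ * y * g) := by
  unfold cocWeight
  rw [← Complex.exp_add, hc]
  congr 1
  push_cast
  ring

theorem cocWeight_one (c : G → G → ℝ)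
    (hc : ∀ g h y, c (g * h) y = c g y + c h (g⁻¹ * y * g)) (s : ℝ) (y : G) :
    cocWeight c s 1 y = 1 := by
  have h1 : c 1 y = 0 := by
    have := hc 1 1 y
    simp only [mul_one, inv_one, one_mul] at this
    linarith
  unfold cocWeight
  rw [h1]
  simp

omit [Group G] in
theorem cocWeight_zero (c : G → G → ℝ) (g y : G) : cocWeight c 0 g y = 1 := by
  unfold cocWeight
  simp

omit [Group G] in
theorem norm_cocWeight_sub_one_le (c : G → G → ℝ) (s : ℝ) (g y : G) :
    ‖cocWeight c s g y - 1‖ ≤ |s| * |c g y| := by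
  unfold cocWeight
  have h := Real.norm_exp_I_mul_ofReal_sub_one_le (x := s * c g y)
  rw [mul_comm] at h
  rw [Real.norm_eq_abs, abs_mul] at h
  exact h

namespace XP

/-- the twisted embedding of `ℓ¹(G)` into the crossed product given by a cocycle -/
noncomputable def twist (c : G → G → ℝ)
    (hc : ∀ g h y, c (g * h) y = c g y + c h (g⁻¹ * y * g)) (s : ℝ) : L1 G →+* XP G :=
  wmap (cocWeight c s) (fun g y => (norm_cocWeight c s g y).le) (cocWeight_mul c hc s)
    (cocWeight_one c hc s)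

theorem twist_val (c : G → G → ℝ)
    (hc : ∀ g h y, c (g * h) y = c g y + c h (g⁻¹ * y * g)) (s : ℝ) (a : L1 G) (g y : G) :
    (twist c hc s a).1 g y = cocWeight c s g y * a.1 g := rfl

theorem tendsto_gauge_twist_sub (c : G → G → ℝ)
    (hc : ∀ g h y, c (g * h) y = c g y + c h (g⁻¹ * y * g))
    (hbdd : ∀ g, ∃ M, ∀ y, |c g y| ≤ M) (a : L1 G) :
    Tendsto (fun s : ℝ => gauge (twist c hc s a - twist c hc 0 a)) (𝓝 0) (𝓝 0) := by
  have hval : ∀ (s : ℝ) (g y : G), (twist c hc s a - twist c hc 0 a).1 g y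
      = (cocWeight c s g y - 1) * a.1 g := by
    intro s g y
    rw [val_sub]
    show cocWeight c s g y * a.1 g - cocWeight c 0 g y * a.1 g = _
    rw [cocWeight_zero]
    ring
  have key : Tendsto (fun s : ℝ => ∑' g, supNorm (twist c hc s a - twist c hc 0 a).1 g) (𝓝 0)
      (𝓝 (∑' _ : G, (0 : ℝ))) := by
    apply tendsto_tsum_of_dominated_convergence (bound := fun g => 2 * ‖a.1 g‖) (a.2.mul_left 2)
    · intro g
      obtain ⟨M, hM⟩ := hbdd g
      have hM0 : 0 ≤ M := (abs_nonneg _).trans (hM 1)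
      have hb : ∀ s : ℝ, supNorm (twist c hc s a - twist c hc 0 a).1 g
          ≤ |s| * (M * ‖a.1 g‖) := by
        intro s
        refine supNorm_le (mul_nonneg (abs_nonneg _) (mul_nonneg hM0 (norm_nonneg _)))
          (fun y => ?_)
        rw [hval, norm_mul]
        calc ‖cocWeight c s g y - 1‖ * ‖a.1 g‖ ≤ (|s| * |c g y|) * ‖a.1 g‖ :=
              mul_le_mul_of_nonneg_right (norm_cocWeight_sub_one_le c s g y) (norm_nonneg _)
          _ ≤ (|s| * M) * ‖a.1 g‖ :=
              mul_le_mul_of_nonneg_right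
                (mul_le_mul_of_nonneg_left (hM y) (abs_nonneg _)) (norm_nonneg _)
          _ = |s| * (M * ‖a.1 g‖) := by ring
      have ht : Tendsto (fun s : ℝ => |s| * (M * ‖a.1 g‖)) (𝓝 0) (𝓝 0) := by
        have hcont : Continuous (fun s : ℝ => |s| * (M * ‖a.1 g‖)) := by fun_prop
        exact hcont.tendsto' 0 0 (by simp)
      exact squeeze_zero (fun s => supNorm_nonneg _ _) hb ht
    · refine Eventually.of_forall (fun s g => ?_)
      rw [Real.norm_of_nonneg (supNorm_nonneg _ _)]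
      refine supNorm_le (mul_nonneg zero_le_two (norm_nonneg _)) (fun y => ?_)
      rw [hval, norm_mul]
      calc ‖cocWeight c s g y - 1‖ * ‖a.1 g‖ ≤ (‖cocWeight c s g y‖ + ‖(1 : ℂ)‖) * ‖a.1 g‖ :=
            mul_le_mul_of_nonneg_right (norm_sub_le _ _) (norm_nonneg _)
        _ = 2 * ‖a.1 g‖ := by rw [norm_cocWeight, norm_one]; ring
  rw [tsum_zero] at key
  exact key

end XP

/-- the phase `exp(i s θ)` -/
noncomputable def phase (θ s : ℝ) : ℂ := Complex.exp (((s * θ : ℝ) : ℂ) * Complex.I)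

theorem phase_ne_one {θ s : ℝ} (hθ : θ ≠ 0) (hs0 : 0 < s) (hsπ : s * |θ| ≤ Real.pi) :
    phase θ s ≠ 1 := by
  intro h1
  have hre : Real.cos (s * θ) = 1 := by
    have := congrArg Complex.re h1
    unfold phase at this
    rw [Complex.exp_ofReal_mul_I_re] at this
    simpa using this
  have hbound : |s * θ| ≤ Real.pi := by
    rw [abs_mul, abs_of_pos hs0]; exact hsπ
  have hlt : -(2 * Real.pi) < s * θ := by
    have := neg_abs_le (s * θ)
    linarith [Real.pi_pos]
  have hlt' : s * θ < 2 * Real.pi := by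
    have := le_abs_self (s * θ)
    linarith [Real.pi_pos]
  have hz := (Real.cos_eq_one_iff_of_lt_of_lt hlt hlt').mp hre
  rcases mul_eq_zero.mp hz with h | h
  · exact hs0.ne' h
  · exact hθ h

/-- Vanishing of the class trace of an idempotent matrix over `ℓ¹(G)` at the class of `g₀`, given a
real cocycle for the conjugation action that is bounded in the second variable and takes a nonzero
constant value `θ` on the diagonal of the class. -/
theorem trace_vanish_of_cocycle (q : ℕ) (e : Fin q → Fin q → G → ℂ)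
    (hsum : ∀ i j, Summable (fun g => ‖e i j g‖))
    (hidem : ∀ i j g, ∑ k, ∑' h, e i k h * e k j (h⁻¹ * g) = e i j g)
    (g₀ : G) (c : G → G → ℝ)
    (hc : ∀ g h y, c (g * h) y = c g y + c h (g⁻¹ * y * g))
    (hbdd : ∀ g, ∃ M, ∀ y, |c g y| ≤ M)
    (θ : ℝ) (hθ : θ ≠ 0) (hdiag : ∀ y, IsConj g₀ y → c y y = θ) :
    ∑' x : {x : G // IsConj g₀ x}, ∑ i, e i i x = 0 := by
  set eM : Matrix (Fin q) (Fin q) (L1 G) := fun i j => ⟨e i j, hsum i j⟩ with heM
  have he : eM * eM = eM := by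
    ext i j
    apply Subtype.ext
    funext g
    rw [Matrix.mul_apply]
    have h1 : (∑ k, eM i k * eM k j).1 = ∑ k, (eM i k * eM k j).1 :=
      map_sum (L1.valHom G) _ _
    rw [h1, Finset.sum_apply]
    exact hidem i j g
  have htend : Tendsto (fun s : ℝ => ∑ i, ∑ j,
      XP.gauge ((XP.twist c hc s) (eM i j) - (XP.twist c hc 0) (eM i j))) (𝓝 0) (𝓝 0) := by
    have h1 : Tendsto (fun s : ℝ => ∑ i, ∑ j,
        XP.gauge ((XP.twist c hc s) (eM i j) - (XP.twist c hc 0) (eM i j))) (𝓝 0)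
        (𝓝 (∑ _i : Fin q, ∑ _j : Fin q, (0 : ℝ))) :=
      tendsto_finsetSum _ (fun i _ => tendsto_finsetSum _
        (fun j _ => XP.tendsto_gauge_twist_sub c hc hbdd (eM i j)))
    simpa using h1
  have hev : ∀ᶠ s : ℝ in 𝓝 0, ∑ i, ∑ j,
      XP.gauge ((XP.twist c hc s) (eM i j) - (XP.twist c hc 0) (eM i j)) < 1 :=
    htend.eventually (Iio_mem_nhds zero_lt_one)
  obtain ⟨ε, hε, hball⟩ := Metric.eventually_nhds_iff.mp hev
  have habs : 0 < |θ| := abs_pos.mpr hθ
  set s : ℝ := min (ε / 2) (Real.pi / |θ|) with hs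
  have hs0 : 0 < s := lt_min (by linarith) (div_pos Real.pi_pos habs)
  have hsε : s < ε := lt_of_le_of_lt (min_le_left _ _) (by linarith)
  have hsπ : s * |θ| ≤ Real.pi := by
    have : s ≤ Real.pi / |θ| := min_le_right _ _
    calc s * |θ| ≤ Real.pi / |θ| * |θ| := mul_le_mul_of_nonneg_right this habs.le
      _ = Real.pi := div_mul_cancel₀ _ habs.ne'
  have hclose := hball (show dist s 0 < ε by
    rw [Real.dist_eq, sub_zero, abs_of_pos hs0]; exact hsε)
  set e0 : Matrix (Fin q) (Fin q) (XP G) := (XP.twist c hc 0).mapMatrix eM with he0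
  set fM : Matrix (Fin q) (Fin q) (XP G) := (XP.twist c hc s).mapMatrix eM with hfM
  have he0i : e0 * e0 = e0 := by rw [he0, ← map_mul, he]
  have hf : fM * fM = fM := by rw [hfM, ← map_mul, he]
  have hclose' : ∑ i, ∑ j, XP.gauge ((fM - e0) i j) < 1 := hclose
  have hmat := matrix_trace_eq_of_idem_close q (XP.xtrace g₀) (XP.xtrace_mul_comm g₀)
    XP.gauge XP.gauge_nonneg XP.gauge_zero XP.gauge_add_le XP.gauge_mul_le
    (XP.norm_xtrace_le g₀) e0 fM he0i hf hclose'
  have hfii : ∀ i, XP.xtrace g₀ (fM i i) = phase θ s * L1.classTrace g₀ (eM i i) := by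
    intro i
    exact XP.xtrace_wmap g₀ (cocWeight c s) (fun g y => (norm_cocWeight c s g y).le)
      (cocWeight_mul c hc s) (cocWeight_one c hc s) (phase θ s)
      (fun y hy => by unfold cocWeight phase; rw [hdiag y hy]) (eM i i)
  have heii : ∀ i, XP.xtrace g₀ (e0 i i) = L1.classTrace g₀ (eM i i) := by
    intro i
    have := XP.xtrace_wmap g₀ (cocWeight c 0) (fun g y => (norm_cocWeight c 0 g y).le)
      (cocWeight_mul c hc 0) (cocWeight_one c hc 0) 1 (fun y _ => cocWeight_zero c y y) (eM i i)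
    rw [one_mul] at this
    exact this
  have hS : phase θ s * ∑ i, L1.classTrace g₀ (eM i i)
      = ∑ i, L1.classTrace g₀ (eM i i) := by
    calc phase θ s * ∑ i, L1.classTrace g₀ (eM i i)
        = ∑ i, phase θ s * L1.classTrace g₀ (eM i i) := Finset.mul_sum _ _ _
      _ = ∑ i, XP.xtrace g₀ (fM i i) := Finset.sum_congr rfl (fun i _ => (hfii i).symm)
      _ = ∑ i, XP.xtrace g₀ (e0 i i) := hmat
      _ = ∑ i, L1.classTrace g₀ (eM i i) := Finset.sum_congr rfl (fun i _ => heii i)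
  have hne : phase θ s ≠ 1 := phase_ne_one hθ hs0 hsπ
  have hzero : ∑ i, L1.classTrace g₀ (eM i i) = 0 := by
    have h2 : (phase θ s - 1) * ∑ i, L1.classTrace g₀ (eM i i) = 0 := by
      rw [sub_mul, one_mul, hS, sub_self]
    rcases mul_eq_zero.mp h2 with h | h
    · exact absurd (sub_eq_zero.mp h) hne
    · exact h
  have hfinal : ∑' x : {x : G // IsConj g₀ x}, ∑ i, e i i x
      = ∑ i, L1.classTrace g₀ (eM i i) := by
    have h1 : ∑' x : {x : G // IsConj g₀ x}, ∑ i, e i i x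
        = ∑' x : G, Set.indicator {x : G | IsConj g₀ x} (fun x => ∑ i, e i i x) x :=
      tsum_subtype {x : G | IsConj g₀ x} (fun x => ∑ i, e i i x)
    rw [h1]
    have h2 : ∀ i, L1.classTrace g₀ (eM i i) = ∑' x, classWeight g₀ x * e i i x := fun i => rfl
    simp only [h2]
    rw [← Summable.tsum_finsetSum (fun i _ => L1.summable_classWeight_mul g₀ (eM i i))]
    congr 1
    funext x
    unfold classWeight
    by_cases hx : x ∈ {x : G | IsConj g₀ x}
    · rw [Set.indicator_of_mem hx, Set.indicator_of_mem hx]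
      simp only [one_mul]
      rfl
    · rw [Set.indicator_of_notMem hx, Set.indicator_of_notMem hx]
      simp
  rw [hfinal, hzero]

/-- Vanishing of the class trace at the class of `g₀`, given a real function `β` on `G` that is
equivariant under right multiplication by the centralizer of `g₀` (with increments `ψ`), moves by a
bounded amount under every left translation, and has `ψ g₀ ≠ 0`. -/
theorem trace_vanish_of_equivariant (q : ℕ) (e : Fin q → Fin q → G → ℂ)
    (hsum : ∀ i j, Summable (fun g => ‖e i j g‖))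
    (hidem : ∀ i j g, ∑ k, ∑' h, e i k h * e k j (h⁻¹ * g) = e i j g)
    (g₀ : G) (β ψ : G → ℝ)
    (hβ : ∀ k z, z * g₀ = g₀ * z → β (k * z) = β k + ψ z)
    (hbdd : ∀ g, ∃ M, ∀ k, |β (g * k) - β k| ≤ M)
    (hne : ψ g₀ ≠ 0) :
    ∑' x : {x : G // IsConj g₀ x}, ∑ i, e i i x = 0 := by
  classical
  set c : G → G → ℝ := fun g y =>
    if h : IsConj g₀ y then β (Classical.choose (isConj_iff.mp h))
      - β (g⁻¹ * Classical.choose (isConj_iff.mp h)) else 0 with hcdef
  have key : ∀ g y k, k * g₀ * k⁻¹ = y → c g y = β k - β (g⁻¹ * k) := by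
    intro g y k hk
    have h : IsConj g₀ y := isConj_iff.mpr ⟨k, hk⟩
    obtain ⟨k₀, hk₀, hc0⟩ : ∃ k₀, k₀ * g₀ * k₀⁻¹ = y ∧ c g y = β k₀ - β (g⁻¹ * k₀) :=
      ⟨Classical.choose (isConj_iff.mp h), Classical.choose_spec (isConj_iff.mp h), by
        simp only [hcdef, dif_pos h]⟩
    have hz : (k₀⁻¹ * k) * g₀ = g₀ * (k₀⁻¹ * k) := by
      have h1 : k₀ * g₀ * k₀⁻¹ = k * g₀ * k⁻¹ := by rw [hk₀, hk]
      have h2 : g₀ = k₀⁻¹ * (k * g₀ * k⁻¹) * k₀ := by rw [← h1]; group
      calc (k₀⁻¹ * k) * g₀ = k₀⁻¹ * (k * g₀ * k⁻¹) * k₀ * (k₀⁻¹ * k) := by group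
        _ = g₀ * (k₀⁻¹ * k) := by rw [← h2]
    have e1 : β k = β k₀ + ψ (k₀⁻¹ * k) := by
      have := hβ k₀ (k₀⁻¹ * k) hz
      rwa [mul_inv_cancel_left] at this
    have e2 : β (g⁻¹ * k) = β (g⁻¹ * k₀) + ψ (k₀⁻¹ * k) := by
      have := hβ (g⁻¹ * k₀) (k₀⁻¹ * k) hz
      rwa [mul_assoc, mul_inv_cancel_left] at this
    rw [hc0, e1, e2]
    ring
  have hc : ∀ g h y, c (g * h) y = c g y + c h (g⁻¹ * y * g) := by
    intro g h y
    by_cases hy : IsConj g₀ y
    · obtain ⟨k, hk⟩ := isConj_iff.mp hy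
      have hk' : (g⁻¹ * k) * g₀ * (g⁻¹ * k)⁻¹ = g⁻¹ * y * g := by rw [← hk]; group
      rw [key (g * h) y k hk, key g y k hk, key h (g⁻¹ * y * g) (g⁻¹ * k) hk']
      have : (g * h)⁻¹ * k = h⁻¹ * (g⁻¹ * k) := by group
      rw [this]
      ring
    · have hy' : ¬ IsConj g₀ (g⁻¹ * y * g) := by
        intro hcon
        apply hy
        have : IsConj (g⁻¹ * y * g) y := isConj_iff.mpr ⟨g, by group⟩
        exact hcon.trans this
      simp only [hcdef, dif_neg hy, dif_neg hy', add_zero]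
  have hb : ∀ g, ∃ M, ∀ y, |c g y| ≤ M := by
    intro g
    obtain ⟨M, hM⟩ := hbdd g⁻¹
    have hM0 : 0 ≤ M := (abs_nonneg _).trans (hM 1)
    refine ⟨M, fun y => ?_⟩
    by_cases hy : IsConj g₀ y
    · obtain ⟨k, hk⟩ := isConj_iff.mp hy
      rw [key g y k hk, abs_sub_comm]
      exact hM k
    · simp only [hcdef, dif_neg hy, abs_zero]
      exact hM0
  have hψinv : ψ g₀⁻¹ = - ψ g₀ := by
    have h1 := hβ 1 g₀ rfl
    have h2 := hβ g₀ g₀⁻¹ (by group : g₀⁻¹ * g₀ = g₀ * g₀⁻¹)
    rw [one_mul] at h1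
    rw [mul_inv_cancel] at h2
    linarith
  have hdiag : ∀ y, IsConj g₀ y → c y y = ψ g₀ := by
    intro y hy
    obtain ⟨k, hk⟩ := isConj_iff.mp hy
    rw [key y y k hk]
    have : y⁻¹ * k = k * g₀⁻¹ := by rw [← hk]; group
    rw [this, hβ k g₀⁻¹ (by group), hψinv]
    ring
  exact trace_vanish_of_cocycle q e hsum hidem g₀ c hc hb (ψ g₀) hne hdiag

/-- Vanishing of the class trace at the class of `g₀`, given a quasimorphism of `G` that is
additive on the centralizer of `g₀` and nonzero at `g₀`. -/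
theorem trace_vanish_of_quasimorphism (q : ℕ) (e : Fin q → Fin q → G → ℂ)
    (hsum : ∀ i j, Summable (fun g => ‖e i j g‖))
    (hidem : ∀ i j g, ∑ k, ∑' h, e i k h * e k j (h⁻¹ * g) = e i j g)
    (g₀ : G) (Φ : G → ℝ) (D : ℝ)
    (hΦ : ∀ a b, |Φ (a * b) - Φ a - Φ b| ≤ D)
    (hZ : ∀ z w, z * g₀ = g₀ * z → w * g₀ = g₀ * w → Φ (z * w) = Φ z + Φ w)
    (hne : Φ g₀ ≠ 0) :
    ∑' x : {x : G // IsConj g₀ x}, ∑ i, e i i x = 0 := by
  classical
  set Z : Subgroup G := Subgroup.centralizer {g₀} with hZdef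
  have hmem : ∀ z : G, z ∈ Z ↔ z * g₀ = g₀ * z := by
    intro z
    rw [hZdef, Subgroup.mem_centralizer_iff]
    constructor
    · intro h
      exact (h g₀ rfl).symm
    · intro h x hx
      rw [Set.mem_singleton_iff] at hx
      rw [hx]
      exact h.symm
  set r : G → G := fun k => (QuotientGroup.mk k : G ⧸ Z).out with hr
  have hr1 : ∀ k, (r k)⁻¹ * k ∈ Z := by
    intro k
    have : (QuotientGroup.mk (r k) : G ⧸ Z) = QuotientGroup.mk k := QuotientGroup.out_eq' _
    exact QuotientGroup.eq.mp this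
  have hr2 : ∀ k z, z ∈ Z → r (k * z) = r k := by
    intro k z hz
    simp only [hr]
    rw [QuotientGroup.mk_mul_of_mem k hz]
  set β : G → ℝ := fun k => Φ (r k) + Φ ((r k)⁻¹ * k) with hβdef
  have hβΦ : ∀ k, |β k - Φ k| ≤ D := by
    intro k
    have h := hΦ (r k) ((r k)⁻¹ * k)
    rw [mul_inv_cancel_left] at h
    have : β k - Φ k = -(Φ k - Φ (r k) - Φ ((r k)⁻¹ * k)) := by
      simp only [hβdef]; ring
    rw [this, abs_neg]
    exact h
  have hβ : ∀ k z, z * g₀ = g₀ * z → β (k * z) = β k + Φ z := by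
    intro k z hz
    have hzZ : z ∈ Z := (hmem z).mpr hz
    simp only [hβdef]
    rw [hr2 k z hzZ, ← mul_assoc, hZ _ z ((hmem _).mp (hr1 k)) hz]
    ring
  have hbdd : ∀ g, ∃ M, ∀ k, |β (g * k) - β k| ≤ M := by
    intro g
    refine ⟨3 * D + |Φ g|, fun k => ?_⟩
    have h1 := hβΦ (g * k)
    have h2 := hβΦ k
    have h3 := hΦ g k
    have e1 : β (g * k) - β k = (β (g * k) - Φ (g * k)) + (Φ (g * k) - Φ g - Φ k) + Φ g
        - (β k - Φ k) := by ring
    rw [e1]
    have t1 := abs_add_le ((β (g * k) - Φ (g * k)) + (Φ (g * k) - Φ g - Φ k) + Φ g) (-(β k - Φ k))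
    have t2 := abs_add_le ((β (g * k) - Φ (g * k)) + (Φ (g * k) - Φ g - Φ k)) (Φ g)
    have t3 := abs_add_le (β (g * k) - Φ (g * k)) (Φ (g * k) - Φ g - Φ k)
    rw [abs_neg] at t1
    rw [sub_eq_add_neg]
    linarith
  exact trace_vanish_of_equivariant q e hsum hidem g₀ β Φ hβ hbdd hne

/-- Vanishing of the class trace at a finite conjugacy class, given a real function that is
additive on the centralizer of `g₀` and nonzero at `g₀`. -/
theorem trace_vanish_of_finite_class (q : ℕ) (e : Fin q → Fin q → G → ℂ)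
    (hsum : ∀ i j, Summable (fun g => ‖e i j g‖))
    (hidem : ∀ i j g, ∑ k, ∑' h, e i k h * e k j (h⁻¹ * g) = e i j g)
    (g₀ : G) (hfin : {y : G | IsConj g₀ y}.Finite) (ψ : G → ℝ)
    (hψ : ∀ z w, z * g₀ = g₀ * z → w * g₀ = g₀ * w → ψ (z * w) = ψ z + ψ w)
    (hne : ψ g₀ ≠ 0) :
    ∑' x : {x : G // IsConj g₀ x}, ∑ i, e i i x = 0 := by
  classical
  set T : G → G := fun y =>
    if h : IsConj g₀ y then Classical.choose (isConj_iff.mp h) else 1 with hTdef
  have hT : ∀ y, IsConj g₀ y → T y * g₀ * (T y)⁻¹ = y := by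
    intro y hy
    simp only [hTdef, dif_pos hy]
    exact Classical.choose_spec (isConj_iff.mp hy)
  have hconj : ∀ k : G, IsConj g₀ (k * g₀ * k⁻¹) := fun k => isConj_iff.mpr ⟨k, rfl⟩
  -- an element carrying `g₀` to the same conjugate as `k` differs from `k` by the centralizer
  have hcent : ∀ k t : G, t * g₀ * t⁻¹ = k * g₀ * k⁻¹ → (t⁻¹ * k) * g₀ = g₀ * (t⁻¹ * k) := by
    intro k t h
    have h2 : g₀ = t⁻¹ * (k * g₀ * k⁻¹) * t := by rw [← h]; group
    calc (t⁻¹ * k) * g₀ = t⁻¹ * (k * g₀ * k⁻¹) * t * (t⁻¹ * k) := by group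
      _ = g₀ * (t⁻¹ * k) := by rw [← h2]
  set β : G → ℝ := fun k => ψ ((T (k * g₀ * k⁻¹))⁻¹ * k) with hβdef
  have hβ : ∀ k z, z * g₀ = g₀ * z → β (k * z) = β k + ψ z := by
    intro k z hz
    have hsame : (k * z) * g₀ * (k * z)⁻¹ = k * g₀ * k⁻¹ := by
      have : z * g₀ * z⁻¹ = g₀ := by rw [hz]; group
      calc (k * z) * g₀ * (k * z)⁻¹ = k * (z * g₀ * z⁻¹) * k⁻¹ := by group
        _ = k * g₀ * k⁻¹ := by rw [this]
    simp only [hβdef]
    rw [hsame, ← mul_assoc]
    exact hψ _ z (hcent k _ (hT _ (hconj k))) hz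
  have hbdd : ∀ g, ∃ M, ∀ k, |β (g * k) - β k| ≤ M := by
    intro g
    set v : G → ℝ := fun y => ψ ((T (g * y * g⁻¹))⁻¹ * g * T y) with hv
    refine ⟨∑ y ∈ hfin.toFinset, |v y|, fun k => ?_⟩
    have hy : IsConj g₀ (k * g₀ * k⁻¹) := hconj k
    have hgk : (g * k) * g₀ * (g * k)⁻¹ = g * (k * g₀ * k⁻¹) * g⁻¹ := by group
    have hyg : IsConj g₀ (g * (k * g₀ * k⁻¹) * g⁻¹) := by
      rw [← hgk]; exact hconj (g * k)
    have e1 : β (g * k) - β k = v (k * g₀ * k⁻¹) := by
      simp only [hβdef, hv]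
      rw [hgk]
      have hz1 : ((T (k * g₀ * k⁻¹))⁻¹ * k) * g₀ = g₀ * ((T (k * g₀ * k⁻¹))⁻¹ * k) :=
        hcent k _ (hT _ hy)
      have hz2 : ((T (g * (k * g₀ * k⁻¹) * g⁻¹))⁻¹ * g * T (k * g₀ * k⁻¹)) * g₀
          = g₀ * ((T (g * (k * g₀ * k⁻¹) * g⁻¹))⁻¹ * g * T (k * g₀ * k⁻¹)) := by
        have h3 := hcent (g * T (k * g₀ * k⁻¹)) (T (g * (k * g₀ * k⁻¹) * g⁻¹)) (by
          rw [hT _ hyg]
          have := hT _ hy
          calc g * (k * g₀ * k⁻¹) * g⁻¹
              = g * (T (k * g₀ * k⁻¹) * g₀ * (T (k * g₀ * k⁻¹))⁻¹) * g⁻¹ := by rw [this]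
            _ = g * T (k * g₀ * k⁻¹) * g₀ * (g * T (k * g₀ * k⁻¹))⁻¹ := by group)
        simpa only [mul_assoc] using h3
      have hsplit : (T (g * (k * g₀ * k⁻¹) * g⁻¹))⁻¹ * (g * k)
          = ((T (g * (k * g₀ * k⁻¹) * g⁻¹))⁻¹ * g * T (k * g₀ * k⁻¹))
            * ((T (k * g₀ * k⁻¹))⁻¹ * k) := by group
      rw [hsplit, hψ _ _ hz2 hz1]
      ring
    rw [e1]
    exact Finset.single_le_sum (f := fun y => |v y|) (fun y _ => abs_nonneg _)
      (hfin.mem_toFinset.mpr hy)
  have hψ' : ∀ k z, z * g₀ = g₀ * z → β (k * z) = β k + ψ z := hβ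
  exact trace_vanish_of_equivariant q e hsum hidem g₀ β ψ hψ' hbdd hne

end cocycle

end Vale.Agent.Lib.Helper4
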