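import Mathlib
import Vale.Agent.Lib.Helper4.XProd

namespace Vale.Agent.Lib.Helper4

variable {G : Type*} [Group G]

/-- Vanishing of the class trace at the class of `g₀`, given an isometric action of `G` on a
pseudometric space and a Lipschitz function `f` on it such that every element commuting with `g₀`
changes `f` by an additive constant, and `g₀` really moves `f`. -/
theorem trace_vanish_of_horofunction {X : Type*} [PseudoMetricSpace X] [MulAction G X]
    [IsIsometricSMul G X] (q : ℕ) (e : Fin q → Fin q → G → ℂ)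
    (hsum : ∀ i j, Summable (fun g => ‖e i j g‖))
    (hidem : ∀ i j g, ∑ k, ∑' h, e i k h * e k j (h⁻¹ * g) = e i j g)
    (g₀ : G) (f : X → ℝ) (K : ℝ)
    (hLip : ∀ x y, |f x - f y| ≤ K * dist x y)
    (hquasi : ∀ z : G, z * g₀ = g₀ * z → ∀ x y : X, f (z • x) - f x = f (z • y) - f y)
    (x₀ : X) (hmove : f (g₀ • x₀) ≠ f x₀) :
    ∑' x : {x : G // IsConj g₀ x}, ∑ i, e i i x = 0 := by
  set β : G → ℝ := fun k => f (k⁻¹ • x₀) with hβdef
  set ψ : G → ℝ := fun z => f (z⁻¹ • x₀) - f x₀ with hψdef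
  have hβ : ∀ k z, z * g₀ = g₀ * z → β (k * z) = β k + ψ z := by
    intro k z hz
    have hz' : z⁻¹ * g₀ = g₀ * z⁻¹ := by
      calc z⁻¹ * g₀ = z⁻¹ * (g₀ * z) * z⁻¹ := by group
        _ = z⁻¹ * (z * g₀) * z⁻¹ := by rw [hz]
        _ = g₀ * z⁻¹ := by group
    have h := hquasi z⁻¹ hz' (k⁻¹ • x₀) x₀
    simp only [hβdef, hψdef]
    rw [mul_inv_rev, mul_smul]
    linarith
  have hbdd : ∀ g, ∃ M, ∀ k, |β (g * k) - β k| ≤ M := by
    intro g
    refine ⟨K * dist (g⁻¹ • x₀) x₀, fun k => ?_⟩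
    simp only [hβdef]
    rw [mul_inv_rev, mul_smul]
    calc |f (k⁻¹ • g⁻¹ • x₀) - f (k⁻¹ • x₀)| ≤ K * dist (k⁻¹ • g⁻¹ • x₀) (k⁻¹ • x₀) := hLip _ _
      _ = K * dist (g⁻¹ • x₀) x₀ := by rw [dist_smul]
  have hne : ψ g₀ ≠ 0 := by
    have h := hquasi g₀ rfl (g₀⁻¹ • x₀) x₀
    rw [smul_inv_smul] at h
    simp only [hψdef]
    intro h0
    apply hmove
    linarith
  exact trace_vanish_of_equivariant q e hsum hidem g₀ β ψ hβ hbdd hne

/-- Vanishing of the class trace at the class of `g₀`, given an isometric action of `G` on a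
pseudometric space satisfying the four-point condition in which the orbit of a point `x₀` under the
powers of `g₀` is at distances `n * ℓ` from `x₀` (an axis with translation length `ℓ > 0`). -/
theorem trace_vanish_of_axis {X : Type*} [PseudoMetricSpace X] [MulAction G X]
    [IsIsometricSMul G X]
    (hfour : ∀ x y z w : X,
      dist x y + dist z w ≤ max (dist x z + dist y w) (dist x w + dist y z))
    (q : ℕ) (e : Fin q → Fin q → G → ℂ)
    (hsum : ∀ i j, Summable (fun g => ‖e i j g‖))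
    (hidem : ∀ i j g, ∑ k, ∑' h, e i k h * e k j (h⁻¹ * g) = e i j g)
    (g₀ : G) (x₀ : X) (ℓ : ℝ) (hℓ : 0 < ℓ)
    (haxis : ∀ n : ℕ, dist (g₀ ^ n • x₀) x₀ = n * ℓ) :
    ∑' x : {x : G // IsConj g₀ x}, ∑ i, e i i x = 0 := by
  set p : ℕ → X := fun n => g₀ ^ n • x₀ with hp
  have hp0 : ∀ n, dist x₀ (p n) = n * ℓ := fun n => by rw [dist_comm]; exact haxis n
  have hpp : ∀ n m : ℕ, n ≤ m → dist (p n) (p m) = (m - n) * ℓ := by
    intro n m hnm
    have h1 : p m = g₀ ^ n • p (m - n) := by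
      simp only [hp]
      rw [← mul_smul, ← pow_add, Nat.add_sub_cancel' hnm]
    have h2 : p n = g₀ ^ n • x₀ := rfl
    rw [h1, h2, dist_smul, hp0, Nat.cast_sub hnm]
  -- stabilisation of the horofunction
  have hstab : ∀ (x : X) (n m : ℕ), dist x x₀ < n * ℓ → n ≤ m →
      dist x (p m) - m * ℓ = dist x (p n) - n * ℓ := by
    intro x n m hn hnm
    have h13 := hfour x (p n) x₀ (p m)
    have h31 := hfour x (p m) x₀ (p n)
    have t1 : dist x₀ (p n) ≤ dist x₀ x + dist x (p n) := dist_triangle _ _ _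
    have t2 : dist x₀ (p m) ≤ dist x₀ x + dist x (p m) := dist_triangle _ _ _
    rw [hp0] at t1 t2
    rw [hp0, hpp n m hnm, dist_comm (p n) x₀, hp0] at h13
    rw [hp0, dist_comm (p m) (p n), hpp n m hnm, dist_comm (p m) x₀, hp0] at h31
    rw [dist_comm x₀ x] at t1 t2
    have hnm' : (n : ℝ) ≤ m := by exact_mod_cast hnm
    rcases le_max_iff.mp h13 with h | h
    · nlinarith
    · rcases le_max_iff.mp h31 with h' | h'
      · nlinarith
      · linarith
  set N : X → ℕ := fun x => ⌊dist x x₀ / ℓ⌋₊ + 1 with hN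
  have hNlt : ∀ x, dist x x₀ < N x * ℓ := by
    intro x
    have h := Nat.lt_floor_add_one (dist x x₀ / ℓ)
    have h2 := (div_lt_iff₀ hℓ).mp h
    simp only [hN]
    push_cast
    exact h2
  set f : X → ℝ := fun x => dist x (p (N x)) - N x * ℓ with hf
  have hfn : ∀ (x : X) (n : ℕ), N x ≤ n → f x = dist x (p n) - n * ℓ := by
    intro x n hn
    exact (hstab x (N x) n (hNlt x) hn).symm
  have hLip : ∀ x y, |f x - f y| ≤ 1 * dist x y := by
    intro x y
    rw [hfn x (max (N x) (N y)) (le_max_left _ _), hfn y (max (N x) (N y)) (le_max_right _ _),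
      one_mul]
    have h1 := dist_triangle x y (p (max (N x) (N y)))
    have h2 := dist_triangle y x (p (max (N x) (N y)))
    rw [dist_comm y x] at h2
    rw [abs_le]
    constructor <;> linarith
  have hquasi : ∀ z : G, z * g₀ = g₀ * z → ∀ x y : X, f (z • x) - f x = f (z • y) - f y := by
    intro z hz
    have hcomm : ∀ n : ℕ, z⁻¹ * g₀ ^ n = g₀ ^ n * z⁻¹ := by
      intro n
      have hc : Commute z g₀ := hz
      exact (hc.inv_left.pow_right n).eq
    set D : ℝ := dist x₀ (z⁻¹ • x₀) with hD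
    have hpq : ∀ n, dist (p n) (z⁻¹ • p n) = D := by
      intro n
      simp only [hp]
      rw [← mul_smul, hcomm n, mul_smul, dist_smul]
    have key : ∀ x : X, ∃ n₀ : ℕ, ∀ n, n₀ ≤ n →
        f (z • x) - f x = dist x₀ (z⁻¹ • p n) - n * ℓ := by
      intro x
      refine ⟨max (N (z • x)) (max (N x) (⌊(dist x x₀ + D) / ℓ⌋₊ + 1)), fun n hn => ?_⟩
      have hn1 : N (z • x) ≤ n := (le_max_left _ _).trans hn
      have hn2 : N x ≤ n := ((le_max_left _ _).trans (le_max_right _ _)).trans hn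
      have hn3 : ⌊(dist x x₀ + D) / ℓ⌋₊ + 1 ≤ n :=
        ((le_max_right _ _).trans (le_max_right _ _)).trans hn
      have hbig : dist x x₀ + D < n * ℓ := by
        have h := Nat.lt_floor_add_one ((dist x x₀ + D) / ℓ)
        have h2 := (div_lt_iff₀ hℓ).mp h
        have h3 : ((⌊(dist x x₀ + D) / ℓ⌋₊ : ℝ) + 1) ≤ n := by exact_mod_cast hn3
        nlinarith
      have e1 : f (z • x) = dist x (z⁻¹ • p n) - n * ℓ := by
        rw [hfn (z • x) n hn1]
        congr 1
        rw [← dist_smul z⁻¹ (z • x) (p n), inv_smul_smul]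
      rw [e1, hfn x n hn2]
      have h23 := hfour x (p n) x₀ (z⁻¹ • p n)
      have h32 := hfour x (z⁻¹ • p n) x₀ (p n)
      rw [hpq n, dist_comm (p n) x₀, hp0] at h23
      rw [dist_comm (z⁻¹ • p n) (p n), hpq n, hp0, dist_comm (z⁻¹ • p n) x₀] at h32
      have t1 : dist x₀ (p n) ≤ dist x₀ x + dist x (p n) := dist_triangle _ _ _
      have t2 : dist x₀ (p n) ≤ dist x₀ (z⁻¹ • p n) + dist (z⁻¹ • p n) (p n) :=
        dist_triangle _ _ _
      have t3 : dist x₀ (z⁻¹ • p n) ≤ dist x₀ x + dist x (z⁻¹ • p n) := dist_triangle _ _ _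
      rw [hp0, dist_comm x₀ x] at t1
      rw [hp0, dist_comm (z⁻¹ • p n) (p n), hpq n] at t2
      rw [dist_comm x₀ x] at t3
      rcases le_max_iff.mp h23 with h | h
      · linarith
      · rcases le_max_iff.mp h32 with h' | h'
        · linarith
        · linarith
    intro x y
    obtain ⟨nx, hnx⟩ := key x
    obtain ⟨ny, hny⟩ := key y
    rw [hnx (max nx ny) (le_max_left _ _), hny (max nx ny) (le_max_right _ _)]
  have hmove : f (g₀ • x₀) ≠ f x₀ := by
    set n : ℕ := max (N (g₀ • x₀)) (max (N x₀) 1) with hn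
    have hn1 : N (g₀ • x₀) ≤ n := le_max_left _ _
    have hn2 : N x₀ ≤ n := (le_max_left _ _).trans (le_max_right _ _)
    have hn3 : 1 ≤ n := (le_max_right _ _).trans (le_max_right _ _)
    have hp1 : p 1 = g₀ • x₀ := by simp only [hp, pow_one]
    rw [hfn (g₀ • x₀) n hn1, hfn x₀ n hn2, ← hp1, hpp 1 n hn3, hp0]
    intro h
    have : ((n : ℝ) - (1 : ℕ)) * ℓ - n * ℓ = -ℓ := by push_cast; ring
    rw [this] at h
    linarith
  exact trace_vanish_of_horofunction q e hsum hidem g₀ f 1 hLip hquasi x₀ hmove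

end Vale.Agent.Lib.Helper4
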